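import Crest.Agent.R163.E3.Tab
import Crest.Agent.R163.E3.Lanes

/-! # R163/E3/Cert45_0: cell checks (generated) -/

set_option autoImplicit false

namespace Crest.Agent.R163.E3

open Tr

theorem c45_0 : chk cf45 tabP tabM ([] ++ ls45) 0 0 32768 0 65536
    (x z (y z (x z (y z (x z z))))) = true := by
  decide +kernel

theorem c45_1 : chk cf45 tabP tabM ([] ++ ls45) 0 32768 65536 0 32768
    (x (x z (y (x z z) (x z z))) (x (y (x z (y z z)) (x (y z z) (y (x z z) (y (x z z) (x z z))))) (y (x (y (x z z)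
    (x z z)) (y (x z z) (x z z))) (y (x (x (y z z) (y z z)) (y (x z z) (x (y z z) (y z z)))) (x (y (x z (y z
    z)) (x (y z z) (y z z))) (y (x (y (x z z) (x z z)) (y (x z z) (x z z))) (x (y (x z z) (x z z)) (y (x z z)
    (x z (y z z)))))))))) = true := by
  decide +kernel

theorem c45_2 : chk cf45 tabP tabM ([] ++ ls45) 0 32768 49152 32768 65536
    (y (x (x z z) (y (x z z) (x z (y z z)))) (x (x (y z z) (y z z)) (y (x z (y z (x z z))) (x (x z (y z z)) (y (x
    z z) (x z (y z z))))))) = true := by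
  decide +kernel

theorem c45_3 : chk cf45 tabP tabM ([] ++ ls45) 0 49152 65536 32768 49152
    (x (y (x (y z (x z z)) (y (x z z) (x z z))) (x (y (x z z) (x z z)) (y (x z (y z z)) (x z (y z z))))) (y (x (y
    (x (y z z) (y z (x z z))) (x (y z z) (y (x z z) (x z z)))) (y (x (y (x z z) (x z z)) (y (x (y z z) (y (x z
    z) (x z z))) (x (y (x z z) (x z z)) (y (x z z) (x z (y z z)))))) (x (y (x z (y z z)) (x z (y z z))) (y (x
    (y (x z z) (x z z)) (y (x (y z z) (y z (x z z))) (x (y z (x z z)) (y (x z z) (x z z))))) (x (y (x z (y z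
    z)) (x z (y z z))) (y (x (y (x z z) (x z z)) (y (x z z) (x z z))) (x (y (x z z) (x z z)) (y (x z z) (x z
    z))))))))) (x (y (x (y z (x z z)) (y (x z z) (x z z))) (x (y (x z z) (x z z)) (y (x z z) (x z (y z z)))))
    (y (x (y (x (y z z) (y (x z z) (x z z))) (x (y z z) (y (x z z) (x z z)))) (y (x (y (x z (y z z)) (x z (y z
    z))) (y (x (y (x z z) (x z z)) (y (x z z) (x z z))) (x (y (x z z) (x z z)) (y (x z z) (x z z))))) (x (y (x
    z (y z z)) (x (y z z) (y z (x z z)))) (y (x (y (x z z) (x z z)) (y (x z z) (x z z))) (x (y (x z z) (x z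
    z)) (y (x z z) (x z z))))))) (x (y (x (y z (x z z)) (y (x z z) (x z z))) (x (y (x z z) (x z z)) (y (x z z)
    (x z z)))) (y (x (y (x (y z z) (y (x z z) (x z z))) (x (y z z) (y (x z z) (x z z)))) (y (x (y (x z z) (x z
    z)) (y (x z z) (x z z))) (x (y (x z z) (x z z)) (y (x z z) (x z z))))) (x (y (x (y z z) (y (x z z) (x z
    z))) (x (y z z) (y (x z z) (x z z)))) (y (x (y (x z z) (x z z)) (y (x z (y z z)) (x z (y z z)))) (x (y (x
    z z) (x z z)) (y (x z z) (x (y z z) (y z z)))))))))))) = true := by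
  decide +kernel

theorem c45_4 : chk cf45 tabP tabM ([] ++ ls45) 0 49152 57344 49152 65536
    (y (x (y (x z z) (x z (y z z))) (y (x (y z z) (y (x z z) (x z z))) (x (y (x z z) (x z z)) (y (x z z) (x z (y z
    z)))))) (x (y (x (y z z) (y (x z z) (x z z))) (x (y (x z z) (x z (y z z))) (y (x (y z z) (y z (x z z))) (x
    (y z z) (y (x z z) (x z z)))))) (y (x (y (x z (y z z)) (x (y z z) (y z (x z z)))) (y (x (y z z) (y z (x z
    z))) (x (y (x z z) (x z z)) (y (x z z) (x z (y z z)))))) (x (y (x (y (x z z) (x z z)) (y (x z z) (x z (y z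
    z)))) (x (y (x z (y z z)) (x (y z z) (y z z))) (y (x (y z z) (y z (x z z))) (x (y (x z z) (x z z)) (y (x z
    z) (x z z)))))) (y (x (y (x (y z z) (y z z)) (x (y z z) (y z (x z z)))) (y (x (y z z) (y z z)) (x (y (x z
    z) (x z z)) (y (x z z) (x z z))))) (x (y (x (y (x z z) (x z z)) (y (x z z) (x z z))) (x (y (x z z) (x z (y
    z z))) (y (x z (y z z)) (x (y z z) (y z z))))) (y (x (y (x z z) (x z z)) (y (x z z) (x z (y z z)))) (x (y
    (x (y z z) (y z z)) (x (y z z) (y z z))) (y (x (y z z) (y z z)) (x (y z z) (y z z))))))))))) = true := by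
  decide +kernel

theorem c45_5 : chk cf45 tabP tabM ([] ++ ls45) 0 57344 65536 49152 57344
    (x (y (x (y (x z z) (x z z)) (y (x (y z z) (y z z)) (x (y z z) (y z (x z z))))) (x (y (x (y z z) (y z z)) (x
    (y z z) (y z (x z z)))) (y (x (y z z) (y (x z z) (x z z))) (x (y (x z z) (x z z)) (y (x z z) (x z z))))))
    (y (x (y (x (y (x z z) (x z z)) (y (x z (y z z)) (x z (y z z)))) (x (y (x z z) (x z z)) (y (x z (y z z))
    (x z (y z z))))) (y (x (y (x (y z z) (y (x z z) (x z z))) (x (y z z) (y (x z z) (x z z)))) (y (x (y (x z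
    z) (x z z)) (y (x (y z z) (y z z)) (x (y z z) (y z z)))) (x (y (x z z) (x z z)) (y (x (y z z) (y z z)) (x
    (y z z) (y z z)))))) (x (y (x (y z (x z z)) (y (x z z) (x z z))) (x (y (x z z) (x z z)) (y (x z z) (x z
    z)))) (y (x (y (x z (y z z)) (x z (y z z))) (y (x (y z z) (y z z)) (x (y z z) (y z z)))) (x (y (x z (y z
    z)) (x z (y z z))) (y (x (y z z) (y z z)) (x (y z z) (y z z)))))))) (x (y (x (y (x z z) (x z z)) (y (x (y
    z z) (y z z)) (x (y z z) (y z z)))) (x (y (x z (y z z)) (x (y z z) (y z z))) (y (x (y z z) (y (x z z) (x z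
    z))) (x (y z z) (y (x z z) (x z z)))))) (y (x (y (x (y (x z z) (x z z)) (y (x z z) (x z z))) (x (y (x z z)
    (x z z)) (y (x z z) (x z z)))) (y (x (y (x z (y z z)) (x z (y z z))) (y (x (y z z) (y z z)) (x (y z z) (y
    z z)))) (x (y (x z (y z z)) (x z (y z z))) (y (x (y z z) (y z z)) (x (y z z) (y z z)))))) (x (y (x (y (x z
    z) (x z z)) (y (x z z) (x z z))) (x (y (x z z) (x z z)) (y (x z (y z z)) (x z (y z z))))) (y (x (y (x (y z
    z) (y z z)) (x (y z z) (y z z))) (y (x (y z z) (y z z)) (x (y z z) (y z z)))) (x (y (x (y z z) (y z z)) (x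
    (y z z) (y z z))) (y (x (y z z) (y z z)) (x (y z z) (y z (x z z))))))))))) = true := by
  decide +kernel


end Crest.Agent.R163.E3
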