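import Crest.Agent.R163.E3.Tab
import Crest.Agent.R163.E3.Lanes

/-! # R163/E3/Cert45_1: cell checks (generated) -/

set_option autoImplicit false

namespace Crest.Agent.R163.E3

open Tr

theorem c45_6 : chk cf45 tabP tabM ([] ++ ls45) 0 57344 61440 57344 65536
    (y (x (y (x (y (x z z) (x z z)) (y (x z z) (x z z))) (x (y (x z z) (x (y z z) (y z z))) (y (x z (y z z)) (x (y
    z z) (y z z))))) (y (x (y (x z z) (x z (y z z))) (y (x z (y z z)) (x (y z z) (y z z)))) (x (y (x (y z z)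
    (y z z)) (x (y z (x z z)) (y z (x z z)))) (y (x (y z z) (y z (x z z))) (x (y (x z z) (x z z)) (y (x z z)
    (x z z))))))) (x (y (x (y (x (y z z) (y z (x z z))) (x (y (x z z) (x z z)) (y (x z z) (x z z)))) (y (x (y
    (x z z) (x z z)) (y (x z z) (x z z))) (x (y (x z z) (x z z)) (y (x z z) (x z (y z z)))))) (x (y (x (y (x z
    z) (x (y z z) (y z z))) (y (x (y z z) (y z z)) (x (y z z) (y z z)))) (x (y (x (y z z) (y z z)) (x (y z z)
    (y z z))) (y (x (y z z) (y z z)) (x (y z z) (y z z))))) (y (x (y (x (y z z) (y z z)) (x (y z z) (y z z)))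
    (y (x (y z z) (y z z)) (x (y z z) (y z z)))) (x (y (x (y z z) (y z z)) (x (y z (x z z)) (y (x z z) (x z
    z)))) (y (x (y z (x z z)) (y z (x z z))) (x (y (x z z) (x z z)) (y (x z z) (x z z)))))))) (y (x (y (x (y
    (x z z) (x z z)) (y (x z z) (x z z))) (x (y (x z z) (x (y z z) (y z z))) (y (x z (y z z)) (x (y z z) (y z
    z))))) (y (x (y (x z z) (x z (y z z))) (y (x z z) (x (y z z) (y z z)))) (x (y (x (y z z) (y z z)) (x (y z
    z) (y z z))) (y (x (y z z) (y z z)) (x (y z (x z z)) (y z (x z z))))))) (x (y (x (y (x (y z z) (y z z)) (x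
    (y z z) (y z (x z z)))) (y (x (y z z) (y z (x z z))) (x (y (x z z) (x z z)) (y (x z z) (x z z))))) (x (y
    (x (y (x z z) (x z z)) (y (x z z) (x z z))) (x (y (x z z) (x z z)) (y (x z z) (x z z)))) (y (x (y (x z z)
    (x z z)) (y (x z z) (x z z))) (x (y (x z z) (x z (y z z))) (y (x z (y z z)) (x (y z z) (y z z))))))) (y (x
    (y (x (y (x z z) (x z z)) (y (x z z) (x z z))) (x (y (x z z) (x z z)) (y (x z z) (x z z)))) (y (x (y (x z
    z) (x z z)) (y (x z z) (x z z))) (x (y (x z z) (x z z)) (y (x z z) (x (y z z) (y z z)))))) (x (y (x (y (x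
    z z) (x z z)) (y (x z (y z z)) (x (y z z) (y z z)))) (x (y (x (y z z) (y z z)) (x (y z z) (y z z))) (y (x
    (y z z) (y z z)) (x (y z z) (y z z))))) (y (x (y (x (y z z) (y z z)) (x (y z z) (y z z))) (y (x (y z z) (y
    z z)) (x (y z z) (y z z)))) (x (y (x (y z z) (y z z)) (x (y z z) (y z z))) (y (x (y z z) (y z z)) (x (y z
    z) (y z z))))))))))) = true := by
  decide +kernel

theorem c45_7 : chk cf45 tabP tabM ([] ++ ls45) 0 61440 65536 57344 61440
    (x (y (x (y (x (y z z) (y z z)) (x (y z z) (y z (x z z)))) (y (x (y (x z z) (x z z)) (y (x z z) (x z z))) (x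
    (y (x z z) (x z z)) (y (x z z) (x z (y z z)))))) (x (y (x (y (x z z) (x z z)) (y (x z z) (x z z))) (x (y
    (x z z) (x z z)) (y (x z z) (x z (y z z))))) (y (x (y (x z z) (x z (y z z))) (y (x (y z z) (y z z)) (x (y
    z z) (y z z)))) (x (y (x (y z z) (y z z)) (x (y z z) (y z z))) (y (x (y z z) (y z (x z z))) (x (y (x z z)
    (x z z)) (y (x z z) (x z z)))))))) (y (x (y (x (y (x z z) (x z (y z z))) (y (x (y z z) (y z z)) (x (y z z)
    (y z z)))) (x (y (x (y z z) (y z z)) (x (y z z) (y z z))) (y (x (y z z) (y z (x z z))) (x (y z (x z z)) (y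
    (x z z) (x z z)))))) (y (x (y (x (y z z) (y z (x z z))) (x (y z (x z z)) (y (x z z) (x z z)))) (y (x (y (x
    z z) (x z z)) (y (x z z) (x z z))) (x (y (x z z) (x z z)) (y (x z z) (x z z))))) (x (y (x (y (x z z) (x z
    z)) (y (x z z) (x z z))) (x (y (x z z) (x z z)) (y (x z z) (x z z)))) (y (x (y (x z z) (x z z)) (y (x z z)
    (x z z))) (x (y (x z z) (x z z)) (y (x z z) (x z z))))))) (x (y (x (y (x (y z z) (y z (x z z))) (x (y z (x
    z z)) (y (x z z) (x z z)))) (y (x (y (x z z) (x z z)) (y (x z z) (x z z))) (x (y (x z z) (x z z)) (y (x z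
    z) (x z z))))) (x (y (x (y (x z z) (x z z)) (y (x z z) (x z z))) (x (y (x z z) (x z z)) (y (x z z) (x z (y
    z z))))) (y (x (y (x z z) (x z z)) (y (x z (y z z)) (x (y z z) (y z z)))) (x (y (x (y z z) (y z z)) (x (y
    z z) (y z z))) (y (x (y z z) (y z z)) (x (y z z) (y z z))))))) (y (x (y (x (y (x z z) (x z z)) (y (x z z)
    (x z z))) (x (y (x z z) (x z (y z z))) (y (x (y z z) (y z z)) (x (y z z) (y z z))))) (y (x (y (x z z) (x
    (y z z) (y z z))) (y (x z z) (x (y z z) (y z z)))) (x (y (x (y z z) (y z z)) (x (y z z) (y z z))) (y (x (y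
    z z) (y z z)) (x (y z z) (y z z)))))) (x (y (x (y (x (y z z) (y z z)) (x (y z z) (y z z))) (y (x (y z z)
    (y z z)) (x (y z z) (y z z)))) (x (y (x (y z z) (y z z)) (x (y z z) (y z z))) (y (x (y z z) (y z z)) (x (y
    z z) (y z z))))) (y (x (y (x (y z z) (y z z)) (x (y z z) (y z z))) (y (x (y z z) (y z z)) (x (y z z) (y z
    z)))) (x (y (x (y z z) (y z z)) (x (y z z) (y z z))) (y (x (y z z) (y z z)) (x (y z z) (y z z)))))))))) = true := by
  decide +kernel


end Crest.Agent.R163.E3
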