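import Crest.Agent.R163.E3.Tab
import Crest.Agent.R163.E2.Apx

/-!
# R163/E3/TabOK: verification of the tables

With `w = m / 1024`: `Kf sg k 1 (w²) = w (1 + k² ± cos (k log w))`; the entry is `⌊2^36 Kf⌋ - 256` (truncated at `0`; all entries vanish for `m = 0`), so an
absolute slack `2^-28` is available.  Write a Boolean checker (kernel style of `E2/Num.lean`, `decide +kernel`, a few seconds) over `m = 1, …, 1024` with a hint list
`n m = round (-2^16 log w)` (generate it with Python; `n < 2^19`): `E = powN eTab n one96 ≈ exp (-n/2^16) 2^96` (`powN_spec`, use `sqN_eq`/`sqC_eq` to get the tables as literals once),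
`y = exp (-n/2^16) / w - 1` satisfies `|y| ≤ 2^-16` (checked), `-log w = n/2^16 + log (1 + y)`, `|log (1+y) - y| ≤ y²`
(`Real.abs_log_sub_add_sum_range_le` or `Real.log_le_sub_one_of_pos` + `Real.one_sub_inv_le_log_of_pos`), `Z = powC cTab (k n) 1 ≈ exp (i k n/2^16)` (`powC_spec`), and
`|cos (a + η) - (cos a - η sin a)| ≤ η²/2`.  Check both tables in the same loop; each `m < 1024` looks up the entries `m` and `m + 1`
(simplest: check the statement of `TabOK` for each `m < 1024`, `j < 2`, computing the bounds for `m + j`, or carry the previous bounds along).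
-/

set_option autoImplicit false

namespace Crest.Agent.R163.E3

open E2

/-- the hints `round (-2^16 log (m/1024))`, 20 bits each -/
def tabHint : ℕ := 7583891086321843968201169932220754135357430118709257694937433936388451848591606526390810591475198795528963885272767474616292973552567278675188026094797579955874934599703616675667076408082152173743530824927509413859241859999199093795522272457364088564645675329701987364200150389856638269850278101160935275558877516764279938927129354674446320379351674643431555060402231434389865895049324640783613579513400938146871138712137057823577281926617768020507687742819368262808287270558898065751728091473582064056243598816763489684874196023650857584485794830204479152641445870164333759915125098761160646064003150033672611672980034831659702865342573727666828706151080144957098061479392976239085026547762058426617164120688182895266057391091581686636171429193046835220437813967400267955000142042323439057457658188888714691422454992950520159988377509903785815063993893454440603509048158573212915228209091587538466501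994546563698764850951506924112945484332188520512880186633966114351985988666428458135501054897324855112537192542530924946065226793802210081836265902728309780431865131816699811381433450521620371543662143105412332448332705355782090020817414692448621177026975695918870126889105634285534970309276463106743716988116502278678132748032086340907882521565149252066202064010996338587154109893695257239166748136842193355884645343934597784648272721794547363004588663038323027020109042921583684213988385996780003635639364677592032191655021770372540984936661713534948670408000160709703260789485302520838147294035500962888379389168305556181669267064536653487021668405460781896785973418298886194760283871434151139565340956914227833025238940283440901922310722400334510116681694061038632115882071818491581042198504550015678634585428946014014039669000145857614740825378354411076360081676843660110772257451583334320507519907075836688186425222429657100174281103767650328536294969090342975661084419739916450744144196040369583108349244008950492784054750477399105962737315248053689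858480412789592866142533104061120382654052796950067464626818111170184466126439590306971724618817415535931282197507499302552457537953433074788089782630164534919640839805744691028292114362981512695051765500580295462588772414762319368907817859967925572705488388156195236942008382897312595586125052300966463169884502077805983684603694000461696912586784235063476499149939077953234947453727267990497486377594325758296031301036325918088662194601199850015164366392078335327172079335633529340958294799700902648606599724359157057520921944408960668316069431082048058159620690751031830438043828701714109345535445963003933924016340730883351530903587699395385022065690177973103196412424092191554578730295669029028425342119277482000875470224107012256542185069121537759483352336608114998972172389070612523931013565129814617617865383426586259572574842561485613042115714467687618949356358186747212453842173507234328375704253078360594609197478983540850889340695209382737574765064271095199260325091817628816191135761360362464965121165056842812262555313348576684152497322011795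689013813029644200467797078912544708609684895020550775637256128752247142072567911338452367972666059874576449328332160719360710562905095983467701716511215177448771314961410704073413028070798754930661015167188043944495825635265764321596099924946939397890301896402742094620962661576476758159893060216204451508606401755673714154489239545837232148745687216064318681247473542208188531612638518687878640981215437062501434670817014353523719743888856264455630900621731295451037676572968617848320729180066439616275822530906209682883344481427963632471178527389978889637429024989056448037312511028614873825656640899308661375320684492210496705834204950126717965610452149031477984935698210552153522024167786607649294581900625495807542759210478272926926961253452017590334847848918839969371778139290974824972216969381396333251382525815709297766341175793014951595542311585691850930142057500442887505373463961659559588779951859917860179363530980437112316393661187789244966274518546899653829351221925654570737137674566684140384203003906920341202670793623425419370754473699404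328625412240641327015251835999690580456129555424890840555847013010971284721094198894572898232071275633945055616843750772887366696867575427364908162133911285436814732238991521275116595728693562195537032443435269999326688844547621624329633671197031562176119312181996594959290277743179405577358842083767496890075553747826133724780645466493773598308561665302297742898719452461899753045551678892523096863506027391761239239141744447549633813339544287270319057066524691027200549430748998727075415928779968312178981075696665376042946788741765070021053482716794644544086736726082755631800007122977887955895153273382724223507472611413479086926749572771350485499732392503334905317336229963365094726249791483801144668572087720180912176452335815146687538911616610775608238574398517732500799986287273312625805378384377797139930310293165696857738456450989223422307226403213139806330136744280455536438262569757471770656761334434221217920428132336807929854165213698426782973604947692369415731129770199313449325730893397927004123736843618231998256502974172513082769352945445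2744996496389527668519309879232409049469428513377303691355915358117467816851694689722633860235334382562079879510474133570448011547614667609619787222590787549633338155374539119595935345369644618170406384536983613146874736020783744183088517014974582676479749713296257216770972785668135272049716771188923888018295814752152830001682412712885046480827051149006430405428518846990769888633056206344535376499975486017513452045108146979434719083007773911329490478146992482352111077582632540383454280465755744080090133604513253826638476389983403131041826865598013307466991519856093794996781296886196331681782372307471066911310795111781545440820214747188190138563691465653654455040780033723885336455408452536658658505913398966974968830015082787871919089320570104547926351515818212530903021828243649762221368145228579886391349167779206920559125772060904788183419400067948570796642657391293538568450107042799018404241347542620789262415444309258104425296858773572126797929336266535062189378550911169978646420524617021862354195892727444856266583703552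

def tabH (m : ℕ) : ℕ := Nat.land (Nat.shiftRight tabHint (Nat.mul 20 m)) 1048575

noncomputable def tabNN (z : ℤ) : Bool := Int.rec (fun _ => true) (fun _ => false) z

/-- `e < 2^44` and `e < R` -/
noncomputable def tabE (e : ℕ) (R : ℤ) : Bool :=
  force e fun e => and (Nat.blt e 17592186044416) (tabNN (Int.sub R (Int.ofNat (Nat.succ e))))

noncomputable def tabK (cT : List Cx) (m n : ℕ) (D : ℤ) (A0 A1 B0 B1 k : ℕ) : Bool :=
  (powC cT (Nat.mul (Nat.succ k) n) ⟨Int.ofNat one96, 0⟩).force fun Z =>
  force (Nat.mul m (Nat.sub (Nat.shiftLeft (Nat.succ (Nat.mul (Nat.succ k) (Nat.succ k))) 96)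
    147573952592330848689)) fun base =>
  forceZ (Int.sub (Int.mul (Int.ofNat m) Z.re)
    (Int.shiftRight (Int.mul (Int.mul (Int.ofNat (Nat.succ k)) D) Z.im) 96)) fun t =>
  forceZ (Int.shiftRight (Int.add (Int.ofNat base) t) 70) fun RP =>
  forceZ (Int.shiftRight (Int.sub (Int.ofNat base) t) 70) fun RM =>
  and (and (tabE (lane A0 k) RP) (tabE (lane A1 (Nat.add 4 k)) RP))
    (and (tabE (lane B0 k) RM) (tabE (lane B1 (Nat.add 4 k)) RM))

noncomputable def tab1 (eT : List ℕ) (cT : List Cx) (tP tM : Tb) (i : ℕ) : Bool :=
  force (Nat.succ i) fun m => force (tabH m) fun n => force (powN eT n one96) fun E =>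
  forceZ (Int.sub (Int.ofNat (Nat.mul 1024 E)) (Int.ofNat (Nat.shiftLeft m 96))) fun D =>
  force (lookT tP m) fun A0 => force (lookT tP i) fun A1 =>
  force (lookT tM m) fun B0 => force (lookT tM i) fun B1 =>
  and (Nat.blt (Nat.shiftRight D.natAbs 77) (Nat.mul 5 m))
    (and (and (tabK cT m n D A0 A1 B0 B1 0) (tabK cT m n D A0 A1 B0 B1 1))
      (and (tabK cT m n D A0 A1 B0 B1 2) (tabK cT m n D A0 A1 B0 B1 3)))

noncomputable def tabAll (f : ℕ → Bool) (n : ℕ) : Bool := Nat.rec true (fun i ih => and (f i) ih) n

noncomputable def tabChk (tP tM : Tb) : Bool :=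
  sqN 28 xi0 fun eT => sqC 28 ze0 fun cT => tabAll (tab1 eT cT tP tM) 1024

theorem tabAll_spec {f : ℕ → Bool} {n : ℕ} (h : tabAll f n = true) : ∀ i < n, f i = true := by
  induction n with
  | zero => intro i hi; omega
  | succ n ih =>
    have h' : (f n && tabAll f n) = true := h
    rw [Bool.and_eq_true] at h'
    intro i hi
    rcases Nat.lt_succ_iff_lt_or_eq.1 hi with h1 | rfl
    · exact ih h'.2 i h1
    · exact h'.1

theorem tabE_spec {e : ℕ} {R : ℤ} (h : tabE e (Int.shiftRight R 70) = true) :
    e < 2 ^ 44 ∧ (e : ℝ) * 2 ^ 70 ≤ R := by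
  unfold tabE at h
  rw [force_eq, Bool.and_eq_true] at h
  refine ⟨by have := h.1; rw [Nat.blt_eq] at this; omega, ?_⟩
  have h2 : ∀ z : ℤ, tabNN z = true → 0 ≤ z := fun z hz => by
    cases z with
    | ofNat n => exact Int.natCast_nonneg n
    | negSucc n => exact absurd hz Bool.false_ne_true
  have h3 : (0 : ℤ) ≤ Int.shiftRight R 70 - ((e + 1 : ℕ) : ℤ) := h2 _ h.2
  have h4 : (0 : ℝ) ≤ ((Int.shiftRight R 70 - ((e + 1 : ℕ) : ℤ) : ℤ) : ℝ) := by exact_mod_cast h3
  have h5 := (abs_le.1 (apx_int_div R 70)).2
  push_cast at h4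
  linarith

theorem tab_sin (η : ℝ) : |Real.sin η - η| ≤ |η| ^ 3 / 6 := by
  have key : ∀ x : ℝ, 0 ≤ x → |Real.sin x - x| ≤ |x| ^ 3 / 6 := fun x hx => by
    have h1 := Real.sin_ge_sub_cube hx
    have h2 := Real.sin_le hx
    rw [abs_of_nonneg hx, abs_of_nonpos (by linarith)]
    linarith
  rcases le_total 0 η with h | h
  · exact key η h
  · have := key (-η) (by linarith)
    rwa [Real.sin_neg, abs_neg η, show -Real.sin η - -η = -(Real.sin η - η) by ring, abs_neg] at this

theorem tab_cos {w a y0 C S k : ℝ} (hw : 0 < w) (hk0 : 0 ≤ k) (hk : k ≤ 4)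
    (hy : |Real.exp (-a) / w - 1 - y0| ≤ 1 / 2 ^ 60) (hy0 : |y0| ≤ 5 / 2 ^ 19)
    (hC : |C - Real.cos (k * a)| ≤ 1 / 2 ^ 60) (hS : |S - Real.sin (k * a)| ≤ 1 / 2 ^ 60) :
    |Real.cos (k * Real.log w) - (C - k * y0 * S)| ≤ 1 / 2 ^ 29 := by
  obtain ⟨y, hyd⟩ : ∃ y, y = Real.exp (-a) / w - 1 := ⟨_, rfl⟩
  rw [← hyd] at hy
  have h1 : |y| ≤ 41 / 2 ^ 22 := by
    have := abs_add_le (y - y0) y0
    rw [sub_add_cancel] at this
    linarith
  have h1' := abs_le.1 h1
  have hp : 0 < 1 + y := by linarith [h1'.1]
  obtain ⟨δ, hδ⟩ : ∃ δ, δ = Real.log (1 + y) := ⟨_, rfl⟩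
  have h2 : δ = -a - Real.log w := by
    rw [hδ, hyd, add_sub_cancel, Real.log_div (Real.exp_pos _).ne' hw.ne', Real.log_exp]
  have h3 : δ ≤ y := by have := Real.log_le_sub_one_of_pos hp; linarith
  have hy2 : y ^ 2 ≤ (41 / 2 ^ 22) ^ 2 := by rw [← sq_abs]; gcongr
  have h4 : y - 2 * y ^ 2 ≤ δ := by
    have h5 := Real.one_sub_inv_le_log_of_pos hp
    have h6 : (1 + y)⁻¹ ≤ 1 - y + 2 * y ^ 2 := by
      rw [inv_le_iff_one_le_mul₀ hp]
      nlinarith [mul_nonneg (sq_nonneg y) (by linarith [h1'.1] : 0 ≤ 1 + 2 * y)]
    linarith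
  have h5 : |δ - y0| ≤ 2 * (41 / 2 ^ 22) ^ 2 + 1 / 2 ^ 60 := by
    have := abs_le.1 hy
    exact abs_le.2 ⟨by linarith, by linarith⟩
  have h6 : |δ| ≤ 42 / 2 ^ 22 := abs_le.2 ⟨by linarith [h1'.1], by linarith [h1'.2]⟩
  have h7 : |k * δ| ≤ 4 * (42 / 2 ^ 22) := by
    rw [abs_mul, abs_of_nonneg hk0]; gcongr
  have h8 : Real.cos (k * Real.log w) =
      Real.cos (k * a) * Real.cos (k * δ) - Real.sin (k * a) * Real.sin (k * δ) := by
    rw [← Real.cos_add, ← Real.cos_neg, h2]; congr 1; ring
  have h9 : |Real.cos (k * δ) - 1| ≤ (4 * (42 / 2 ^ 22)) ^ 2 / 2 := by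
    have h10 := Real.one_sub_sq_div_two_le_cos (x := k * δ)
    have h11 := Real.cos_le_one (k * δ)
    have h12 : (k * δ) ^ 2 ≤ (4 * (42 / 2 ^ 22)) ^ 2 := by rw [← sq_abs]; gcongr
    rw [abs_of_nonpos (by linarith)]
    linarith
  have h10 : |Real.sin (k * δ) - k * δ| ≤ (4 * (42 / 2 ^ 22)) ^ 3 / 6 :=
    (tab_sin _).trans (by gcongr)
  have e : Real.cos (k * Real.log w) - (C - k * y0 * S) =
      (-(C - Real.cos (k * a)) + Real.cos (k * a) * (Real.cos (k * δ) - 1)) +
      (-(Real.sin (k * a) * (Real.sin (k * δ) - k * δ))) + (-(Real.sin (k * a) * (k * (δ - y0))) +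
        k * y0 * (S - Real.sin (k * a))) := by
    rw [h8]; ring
  have b1 : |Real.cos (k * a) * (Real.cos (k * δ) - 1)| ≤ 1 * ((4 * (42 / 2 ^ 22)) ^ 2 / 2) := by
    rw [abs_mul]; gcongr; exact Real.abs_cos_le_one _
  have b2 : |Real.sin (k * a) * (Real.sin (k * δ) - k * δ)| ≤ 1 * ((4 * (42 / 2 ^ 22)) ^ 3 / 6) := by
    rw [abs_mul]; gcongr; exact Real.abs_sin_le_one _
  have b3 : |Real.sin (k * a) * (k * (δ - y0))| ≤ 1 * (4 * (2 * (41 / 2 ^ 22) ^ 2 + 1 / 2 ^ 60)) := by
    rw [abs_mul, abs_mul, abs_of_nonneg hk0]; gcongr; exact Real.abs_sin_le_one _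
  have b4 : |k * y0 * (S - Real.sin (k * a))| ≤ 4 * (5 / 2 ^ 19) * (1 / 2 ^ 60) := by
    rw [abs_mul, abs_mul, abs_of_nonneg hk0]; gcongr
  rw [e]
  have c1 := abs_le.1 hC
  have c2 := abs_le.1 b1
  have c3 := abs_le.1 b2
  have c4 := abs_le.1 b3
  have c5 := abs_le.1 b4
  refine abs_le.2 ⟨?_, ?_⟩
  · linarith [c1.2, c2.1, c3.2, c4.2, c5.1]
  · linarith [c1.1, c2.2, c3.1, c4.1, c5.2]

theorem tab_Kf (sg : Bool) (k : ℕ) {w : ℝ} (hw : 0 ≤ w) : Kf sg k 1 (w ^ 2) =
    w * (1 + (k : ℝ) ^ 2 + cond sg (Real.cos (k * Real.log w)) (-Real.cos (k * Real.log w))) := by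
  have h1 : √(1 * w ^ 2) = w := by rw [one_mul, Real.sqrt_sq hw]
  have h2 : Real.cos ((k : ℝ) / 2 * (Real.log 1 - Real.log (w ^ 2))) = Real.cos (k * Real.log w) := by
    rw [Real.log_one, Real.log_pow, ← Real.cos_neg]; congr 1; push_cast; ring
  unfold Kf fH fC
  rw [h1, h2]
  cases sg
  · simp only [cond_false]; ring
  · simp only [cond_true]; ring

/-- the statement for one entry -/
def tabOK1 (sg : Bool) (e k m : ℕ) : Prop :=
  e < 2 ^ 44 ∧ (e : ℝ) ≤ 2 ^ 36 * Kf sg (k + 1) 1 (((m : ℝ) / 1024) ^ 2)

theorem tabK_spec {m n : ℕ} (hm : 1 ≤ m) (hn : n < 2 ^ 20) {D : ℤ}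
    (hD : (D : ℝ) = 1024 * (powN eTab n one96 : ℝ) - m * 2 ^ 96) (hD' : |(D : ℝ)| ≤ 5 * m * 2 ^ 77)
    {A0 A1 B0 B1 k : ℕ} (hk : k < 4) (h : tabK cTab m n D A0 A1 B0 B1 k = true) :
    (tabOK1 true (lane A0 k) k m ∧ tabOK1 true (lane A1 (4 + k)) k m) ∧
      tabOK1 false (lane B0 k) k m ∧ tabOK1 false (lane B1 (4 + k)) k m := by
  have hm' : (1 : ℝ) ≤ m := by exact_mod_cast hm
  have hm0 : (0 : ℝ) < m := by linarith
  have hn' : (n : ℝ) ≤ 2 ^ 20 := by exact_mod_cast hn.le
  have hk' : ((k + 1 : ℕ) : ℝ) ≤ 4 := by exact_mod_cast hk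
  have hkn : (k + 1) * n < 2 ^ 28 :=
    lt_of_le_of_lt (Nat.mul_le_mul (Nat.succ_le_of_lt hk) hn.le) (by norm_num)
  have hkn' : (((k + 1) * n : ℕ) : ℝ) ≤ 2 ^ 28 := by exact_mod_cast hkn.le
  have hE := powN_spec (n := n) (hn.trans (by norm_num))
  have hZ := powC_spec hkn
  unfold tabK at h
  simp only [force_eq, forceZ_eq, Cx.force_eq, Bool.and_eq_true] at h
  simp only [Nat.mul_eq, Nat.succ_eq_add_one] at h
  generalize powC cTab ((k + 1) * n) ⟨Int.ofNat one96, 0⟩ = Z at h hZ
  generalize (powN eTab n one96 : ℝ) = E at hD hE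
  have eZ : (((k + 1) * n : ℕ) : ℂ) / 2 ^ 16 = ((((k + 1 : ℕ) : ℝ) * (n / 2 ^ 16) : ℝ) : ℂ) := by
    push_cast; ring
  have e96 : (2 : ℂ) ^ 96 = ((2 ^ 96 : ℝ) : ℂ) := by push_cast; rfl
  rw [eZ, e96] at hZ
  have hre := (Complex.abs_re_le_norm _).trans hZ
  have him := (Complex.abs_im_le_norm _).trans hZ
  rw [Complex.sub_re, Cx.toC_re, Complex.re_mul_ofReal, Complex.exp_ofReal_mul_I_re] at hre
  rw [Complex.sub_im, Cx.toC_im, Complex.im_mul_ofReal, Complex.exp_ofReal_mul_I_im] at him
  have hdiv : ∀ u v : ℝ, |u - v * 2 ^ 96| ≤ 2 ^ 30 → |u / 2 ^ 96 - v| ≤ 1 / 2 ^ 60 := fun u v huv => by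
    have := abs_le.1 huv
    exact abs_le.2 ⟨by linarith [this.1], by linarith [this.2]⟩
  have hcos := tab_cos (w := (m : ℝ) / 1024) (a := n / 2 ^ 16) (y0 := D / (m * 2 ^ 96))
    (C := Z.re / 2 ^ 96) (S := Z.im / 2 ^ 96) (k := ((k + 1 : ℕ) : ℝ)) (by positivity) (by positivity) hk'
    (by
      have e1 : Real.exp (-((n : ℝ) / 2 ^ 16)) / ((m : ℝ) / 1024) - 1 - D / (m * 2 ^ 96) =
          -(1024 * (E - Real.exp (-((n : ℝ) / 2 ^ 16)) * 2 ^ 96) / 2 ^ 96) / m := by
        rw [hD]; field_simp; ring
      rw [e1, abs_div, abs_neg, abs_of_pos hm0, div_le_iff₀ hm0]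
      have := abs_le.1 hE
      exact abs_le.2 ⟨by linarith [this.1], by linarith [this.2]⟩)
    (by
      rw [abs_div, abs_of_pos (by positivity : (0 : ℝ) < m * 2 ^ 96), div_le_iff₀ (by positivity)]
      linarith)
    (hdiv _ _ (hre.trans (by linarith))) (hdiv _ _ (him.trans (by linarith)))
  obtain ⟨c, hc⟩ : ∃ c, c = Real.cos (((k + 1 : ℕ) : ℝ) * Real.log ((m : ℝ) / 1024)) := ⟨_, rfl⟩
  rw [← hc] at hcos
  obtain ⟨t, ht⟩ : ∃ t : ℝ, t = m * Z.re - ((k + 1 : ℕ) : ℝ) * D * Z.im / 2 ^ 96 := ⟨_, rfl⟩
  have ht2 : |(m : ℝ) * c * 2 ^ 96 - t| ≤ (m : ℝ) * 2 ^ 67 := by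
    have e1 : m * c * 2 ^ 96 - t = m * 2 ^ 96 * (c - (Z.re / 2 ^ 96 -
        ((k + 1 : ℕ) : ℝ) * (D / (m * 2 ^ 96)) * (Z.im / 2 ^ 96))) := by
      rw [ht]; field_simp
    rw [e1, abs_mul, abs_of_pos (by positivity : (0 : ℝ) < m * 2 ^ 96)]
    calc _ ≤ (m : ℝ) * 2 ^ 96 * (1 / 2 ^ 29) := by gcongr
      _ = m * 2 ^ 67 := by ring
  have ht3 := abs_le.1 ht2
  have hu := apx_int_div (Int.mul (Int.mul (Int.ofNat (k + 1)) D) Z.im) 96
  generalize Int.shiftRight (Int.mul (Int.mul (Int.ofNat (k + 1)) D) Z.im) 96 = u at h hu
  change |(u : ℝ) - ((((k + 1 : ℕ) : ℤ) * D * Z.im : ℤ) : ℝ) / 2 ^ 96| ≤ 1 at hu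
  rw [Int.cast_mul, Int.cast_mul, Int.cast_natCast] at hu
  have hu' := abs_le.1 hu
  have hbase : ((m * (((k + 1) * (k + 1) + 1) <<< 96 - 147573952592330848689) : ℕ) : ℝ) =
      m * (1 + ((k + 1 : ℕ) : ℝ) ^ 2) * 2 ^ 96 - m * 147573952592330848689 := by
    rw [Nat.shiftLeft_eq, Nat.cast_mul, Nat.cast_sub (by
      calc 147573952592330848689 ≤ 1 * 2 ^ 96 := by norm_num
        _ ≤ _ := Nat.mul_le_mul_right _ (by omega))]
    push_cast; ring
  have hP : ∀ e : ℕ, tabE e (Int.shiftRight (Int.add (Int.ofNat (m * Nat.sub
      (Nat.shiftLeft ((k + 1) * (k + 1) + 1) 96) 147573952592330848689))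
      (Int.sub (Int.mul (Int.ofNat m) Z.re) u)) 70) = true → tabOK1 true e k m := fun e he => by
    obtain ⟨h1, h2⟩ := tabE_spec he
    refine ⟨h1, ?_⟩
    change _ ≤ (((((m * (((k + 1) * (k + 1) + 1) <<< 96 - 147573952592330848689) : ℕ) : ℤ) +
      ((m : ℤ) * Z.re - u)) : ℤ) : ℝ) at h2
    rw [Int.cast_add, Int.cast_sub, Int.cast_mul, Int.cast_natCast, Int.cast_natCast, hbase] at h2
    rw [tab_Kf _ _ (by positivity), ← hc, cond_true]
    linarith [ht3.1, hu'.1]
  have hM : ∀ e : ℕ, tabE e (Int.shiftRight (Int.sub (Int.ofNat (m * Nat.sub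
      (Nat.shiftLeft ((k + 1) * (k + 1) + 1) 96) 147573952592330848689))
      (Int.sub (Int.mul (Int.ofNat m) Z.re) u)) 70) = true → tabOK1 false e k m := fun e he => by
    obtain ⟨h1, h2⟩ := tabE_spec he
    refine ⟨h1, ?_⟩
    change _ ≤ (((((m * (((k + 1) * (k + 1) + 1) <<< 96 - 147573952592330848689) : ℕ) : ℤ) -
      ((m : ℤ) * Z.re - u)) : ℤ) : ℝ) at h2
    rw [Int.cast_sub, Int.cast_sub, Int.cast_mul, Int.cast_natCast, Int.cast_natCast, hbase] at h2
    rw [tab_Kf _ _ (by positivity), ← hc, cond_false]
    linarith [ht3.2, hu'.2]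
  exact ⟨⟨hP _ h.1.1, hP _ h.1.2⟩, hM _ h.2.1, hM _ h.2.2⟩

theorem tab1_spec {tP tM : Tb} {i : ℕ} (h : tab1 eTab cTab tP tM i = true) {k : ℕ} (hk : k < 4) :
    (tabOK1 true (lane (lookT tP (i + 1)) k) k (i + 1) ∧
      tabOK1 true (lane (lookT tP i) (4 + k)) k (i + 1)) ∧
      tabOK1 false (lane (lookT tM (i + 1)) k) k (i + 1) ∧
        tabOK1 false (lane (lookT tM i) (4 + k)) k (i + 1) := by
  unfold tab1 at h
  simp only [force_eq, forceZ_eq, Bool.and_eq_true, Nat.succ_eq_add_one] at h
  have hn : tabH (i + 1) < 2 ^ 20 := by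
    change _ &&& (2 ^ 20 - 1) < _
    rw [Nat.and_two_pow_sub_one_eq_mod]
    exact Nat.mod_lt _ (by norm_num)
  generalize tabH (i + 1) = n at h hn
  obtain ⟨D, hD⟩ : ∃ D, D = Int.sub (Int.ofNat (Nat.mul 1024 (powN eTab n one96)))
    (Int.ofNat (Nat.shiftLeft (i + 1) 96)) := ⟨_, rfl⟩
  rw [← hD] at h
  have hD1 : (D : ℝ) = 1024 * (powN eTab n one96 : ℝ) - ((i + 1 : ℕ) : ℝ) * 2 ^ 96 := by
    rw [hD]
    change ((((1024 * powN eTab n one96 : ℕ) : ℤ) - (((i + 1) <<< 96 : ℕ) : ℤ) : ℤ) : ℝ) = _
    rw [Nat.shiftLeft_eq]
    push_cast; ring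
  have hD2 : |(D : ℝ)| ≤ 5 * ((i + 1 : ℕ) : ℝ) * 2 ^ 77 := by
    have h0 := h.1
    rw [Nat.blt_eq] at h0
    have h0' : D.natAbs >>> 77 < 5 * (i + 1) := h0
    rw [Nat.shiftRight_eq_div_pow, Nat.div_lt_iff_lt_mul (by positivity)] at h0'
    have h1 := h0'.le
    have h2 : ((D.natAbs : ℕ) : ℝ) ≤ ((5 * (i + 1) * 2 ^ 77 : ℕ) : ℝ) := by exact_mod_cast h1
    rw [Nat.cast_natAbs, Int.cast_abs, Nat.cast_mul, Nat.cast_mul, Nat.cast_pow] at h2
    exact h2
  refine tabK_spec (by omega) hn hD1 hD2 hk ?_
  obtain rfl | rfl | rfl | rfl : k = 0 ∨ k = 1 ∨ k = 2 ∨ k = 3 := by omega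
  exacts [h.2.1.1, h.2.1.2, h.2.2.1, h.2.2.2]

theorem tab_zero {sg : Bool} {e k : ℕ} (h : e = 0) : tabOK1 sg e k 0 := by
  subst h
  refine ⟨by norm_num, ?_⟩
  rw [tab_Kf _ _ (by positivity)]
  simp

theorem tabChk_spec {tP tM : Tb} (h : tabChk tP tM = true)
    (h0 : tabAll (fun k => and (Nat.beq (lane (lookT tP 0) k) 0) (Nat.beq (lane (lookT tM 0) k) 0)) 4 = true) :
    TabOK true tP ∧ TabOK false tM := by
  unfold tabChk at h
  rw [sqN_eq, sqC_eq] at h
  have h1 := tabAll_spec h
  have h2 := tabAll_spec h0
  simp only [Bool.and_eq_true, Nat.beq_eq] at h2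
  have key : ∀ m < 1024, ∀ j < 2, ∀ k < 4, tabOK1 true (lane (lookT tP m) (4 * j + k)) k (m + j) ∧
      tabOK1 false (lane (lookT tM m) (4 * j + k)) k (m + j) := by
    intro m hm j hj k hk
    obtain rfl | rfl : j = 0 ∨ j = 1 := by omega
    · rw [Nat.mul_zero, Nat.zero_add, Nat.add_zero]
      cases m with
      | zero => exact ⟨tab_zero (h2 k hk).1, tab_zero (h2 k hk).2⟩
      | succ i =>
        have := tab1_spec (h1 i (by omega)) hk
        exact ⟨this.1.1, this.2.1⟩
    · have := tab1_spec (h1 m hm) hk
      exact ⟨this.1.2, this.2.2⟩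
  exact ⟨fun m hm j hj k hk => (key m hm j hj k hk).1, fun m hm j hj k hk => (key m hm j hj k hk).2⟩

theorem tabChk_true : tabChk tabP tabM = true := by decide +kernel

theorem tab_both : TabOK true tabP ∧ TabOK false tabM :=
  tabChk_spec tabChk_true (by decide +kernel)

theorem tabP_ok : TabOK true tabP := by
  exact tab_both.1
theorem tabM_ok : TabOK false tabM := by
  exact tab_both.2

end Crest.Agent.R163.E3
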