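import Crest.Agent.R163.E3.Sound
import Crest.Agent.R163.E3.TabOK
import Crest.Agent.R163.E3.Cert45_0
import Crest.Agent.R163.E3.Cert45_1
import Crest.Agent.R163.E3.Cert45_2
import Crest.Agent.R163.E3.Cert45_3
import Crest.Agent.R163.E3.Cert45_4

/-! # R163/E3/Cert45: the whole square (generated) -/

set_option autoImplicit false

namespace Crest.Agent.R163.E3

theorem holds45 : Holds (9 / 20) ([] ++ ls45) 0 0 65536 0 65536 :=
  (Holds.splitX 32768 (chk_sound cf45_ok tabP_ok tabM_ok c45_0) (Holds.splitR 32768 (chk_sound cf45_ok tabP_ok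
    tabM_ok c45_1) (Holds.splitX 49152 (chk_sound cf45_ok tabP_ok tabM_ok c45_2) (Holds.splitR 49152
    (chk_sound cf45_ok tabP_ok tabM_ok c45_3) (Holds.splitX 57344 (chk_sound cf45_ok tabP_ok tabM_ok c45_4)
    (Holds.splitR 57344 (chk_sound cf45_ok tabP_ok tabM_ok c45_5) (Holds.splitX 61440 (chk_sound cf45_ok
    tabP_ok tabM_ok c45_6) (Holds.splitR 61440 (chk_sound cf45_ok tabP_ok tabM_ok c45_7) (Holds.splitX 63488
    (chk_sound cf45_ok tabP_ok tabM_ok c45_8) (Holds.splitR 63488 (chk_sound cf45_ok tabP_ok tabM_ok c45_9)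
    (chk_sound cf45_ok tabP_ok tabM_ok c45_10)))))))))))

end Crest.Agent.R163.E3
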