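import Crest.Agent.R163.E3.Sound
import Crest.Agent.R163.E3.TabOK
import Crest.Agent.R163.E3.Cert50_0
import Crest.Agent.R163.E3.Cert50_1
import Crest.Agent.R163.E3.Cert50_2
import Crest.Agent.R163.E3.Cert50_3
import Crest.Agent.R163.E3.Cert50_4
import Crest.Agent.R163.E3.Cert50_5
import Crest.Agent.R163.E3.Cert50_6
import Crest.Agent.R163.E3.Cert50_7

/-! # R163/E3/Cert50: the whole square (generated) -/

set_option autoImplicit false

namespace Crest.Agent.R163.E3

theorem holds50 : Holds (1 / 2) (dChecks ++ ls50) 5 0 65536 0 65536 :=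
  (Holds.splitX 32768 (chk_sound cf50_ok tabP_ok tabM_ok c50_0) (Holds.splitX 49152 (chk_sound cf50_ok tabP_ok
    tabM_ok c50_1) (Holds.splitR 32768 (chk_sound cf50_ok tabP_ok tabM_ok c50_2) (Holds.splitR 49152
    (chk_sound cf50_ok tabP_ok tabM_ok c50_3) (Holds.splitX 57344 (chk_sound cf50_ok tabP_ok tabM_ok c50_4)
    (Holds.splitR 57344 (chk_sound cf50_ok tabP_ok tabM_ok c50_5) (Holds.splitX 61440 (chk_sound cf50_ok
    tabP_ok tabM_ok c50_6) (Holds.splitR 61440 (chk_sound cf50_ok tabP_ok tabM_ok c50_7) (Holds.splitX 63488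
    (chk_sound cf50_ok tabP_ok tabM_ok c50_8) (Holds.splitR 63488 (chk_sound cf50_ok tabP_ok tabM_ok c50_9)
    (Holds.splitX 64512 (Holds.splitR 64512 (chk_sound cf50_ok tabP_ok tabM_ok c50_10) (chk_sound cf50_ok
    tabP_ok tabM_ok c50_11)) (Holds.splitR 64512 (Holds.splitX 65024 (chk_sound cf50_ok tabP_ok tabM_ok
    c50_12) (chk_sound cf50_ok tabP_ok tabM_ok c50_13)) (Holds.splitX 65024 (chk_sound cf50_ok tabP_ok tabM_ok
    c50_14) (chk_sound cf50_ok tabP_ok tabM_ok c50_15))))))))))))))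

end Crest.Agent.R163.E3
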