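import Crest.Agent.R163.E3.Defs
import Crest.Agent.R163.ALimit

/-!
# R163/E3/Fun: concavity, tangent planes and root bounds

`good2_Kf`: show `Kf sg k x y = inf` of nonnegative linear forms.  For `x, y > 0` write `x = e^(m+θ)`, `y = e^(m-θ)`, so `Kf = e^m g θ`,
`g θ = 1 + k² ± cos (k θ)`.  For any `θ0` let `A = e^(-θ0) (g + g')(θ0) / 2`, `B = e^(θ0) (g - g')(θ0) / 2` (both `≥ 0` as `|cos| + k |sin| ≤ 1 + k²`);
`h θ = A e^θ + B e^(-θ) - g θ` has `h θ0 = h' θ0 = 0` and `h'' - h = (1 + k²)(1 ± cos) ≥ 0`, so `h ≥ 0` (e.g. `e^(-θ)(h' + h)` is monotone, hence `e^θ h` has a minimum at `θ0`).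
Thus `Kf x y ≤ A x + B y` for all `x, y ≥ 0` with equality at a prescribed positive point, which gives superadditivity.
`good2_fQ`, `good2_fH`, `good_gm`: `good_mS` / `mom_geo_add` / `good_G` + `mS_sG_eq`, or weighted AM-GM.  Tangent bounds: weighted AM-GM
(`Real.geom_mean_le_arith_mean2_weighted`, `...3_weighted`).  `cC1_tan`: `x³/S² ≥ 3 λ² x - 2 λ³ S`; convexity: choose `λ i = L i / S`.
-/

set_option autoImplicit false

namespace Crest.Agent.R163.E3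

open E2 Finset

theorem add_of_tan {f : ℝ → ℝ → ℝ} (hx0 : ∀ y, f 0 y = 0) (hy0 : ∀ x, f x 0 = 0)
    (ht : ∀ x0 y0 : ℝ, 0 < x0 → 0 < y0 → ∃ A B : ℝ,
      (∀ x y, 0 ≤ x → 0 ≤ y → f x y ≤ A * x + B * y) ∧ A * x0 + B * y0 ≤ f x0 y0)
    (x y x' y' : ℝ) (hx : 0 ≤ x) (hy : 0 ≤ y) (hx' : 0 ≤ x') (hy' : 0 ≤ y') :
    f x y + f x' y' ≤ f (x + x') (y + y') := by
  rcases (add_nonneg hx hx').eq_or_lt with h1 | h1
  · have e1 : x = 0 := by linarith
    have e2 : x' = 0 := by linarith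
    subst e1 e2
    simp [hx0]
  rcases (add_nonneg hy hy').eq_or_lt with h2 | h2
  · have e1 : y = 0 := by linarith
    have e2 : y' = 0 := by linarith
    subst e1 e2
    simp [hy0]
  obtain ⟨A, B, h3, h4⟩ := ht _ _ h1 h2
  have h5 := h3 x y hx hy
  have h6 := h3 x' y' hx' hy'
  nlinarith

theorem exists_pow4 {x : ℝ} (hx : 0 ≤ x) : ∃ u : ℝ, 0 ≤ u ∧ x = u ^ 4 := by
  refine ⟨√(√x), Real.sqrt_nonneg _, ?_⟩
  rw [show (4 : ℕ) = 2 * 2 from rfl, pow_mul, Real.sq_sqrt (Real.sqrt_nonneg _), Real.sq_sqrt hx]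

theorem fQ_pow4 {u v : ℝ} (hu : 0 ≤ u) (hv : 0 ≤ v) :
    fQ (u ^ 4) (v ^ 4) = (u * v ^ 3 + u ^ 3 * v) / 2 := by
  have h1 : ∀ w : ℝ, 0 ≤ w → (w ^ 4) ^ (1 / 4 : ℝ) = w := fun w hw => by
    rw [← Real.rpow_natCast, ← Real.rpow_mul hw]
    norm_num
  have h3 : ∀ w : ℝ, 0 ≤ w → (w ^ 4) ^ (3 / 4 : ℝ) = w ^ 3 := fun w hw => by
    rw [← Real.rpow_natCast, ← Real.rpow_mul hw, ← Real.rpow_natCast]
    norm_num
  unfold fQ
  rw [h1 u hu, h1 v hv, h3 u hu, h3 v hv]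

theorem fH_sq {u v : ℝ} (hu : 0 ≤ u) (hv : 0 ≤ v) : fH (u ^ 2) (v ^ 2) = u * v := by
  unfold fH
  rw [← mul_pow, Real.sqrt_sq (mul_nonneg hu hv)]

theorem am4 (w v : ℝ) : 4 * (w * v ^ 3) ≤ w ^ 4 + 3 * v ^ 4 := by
  have h : w ^ 4 + 3 * v ^ 4 - 4 * (w * v ^ 3) = (w - v) ^ 2 * ((w + v) ^ 2 + 2 * v ^ 2) := by ring
  have h2 : 0 ≤ (w - v) ^ 2 * ((w + v) ^ 2 + 2 * v ^ 2) := by positivity
  linarith

theorem fQ_le' {a c x y : ℝ} (ha : 0 < a) (hc : 0 < c) (hx : 0 ≤ x) (hy : 0 ≤ y) :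
    fQ x y ≤ (x * ((c ^ 3 + 3 * c * a ^ 2) / a ^ 3) + y * ((a ^ 3 + 3 * a * c ^ 2) / c ^ 3)) / 8 := by
  obtain ⟨u, hu, rfl⟩ := exists_pow4 hx
  obtain ⟨v, hv, rfl⟩ := exists_pow4 hy
  rw [fQ_pow4 hu hv]
  have h1 := am4 (u * c) (v * a)
  have h2 := am4 (v * a) (u * c)
  have e1 : u * v ^ 3 ≤ (u ^ 4 * (c ^ 3 / a ^ 3) + 3 * (v ^ 4 * (a / c))) / 4 := by
    have : (u ^ 4 * (c ^ 3 / a ^ 3) + 3 * (v ^ 4 * (a / c))) / 4 - u * v ^ 3 =
        ((u * c) ^ 4 + 3 * (v * a) ^ 4 - 4 * (u * c * (v * a) ^ 3)) / (4 * a ^ 3 * c) := by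
      field_simp
    have h3 : 0 ≤ ((u * c) ^ 4 + 3 * (v * a) ^ 4 - 4 * (u * c * (v * a) ^ 3)) / (4 * a ^ 3 * c) :=
      div_nonneg (by linarith) (by positivity)
    linarith
  have e2 : u ^ 3 * v ≤ (v ^ 4 * (a ^ 3 / c ^ 3) + 3 * (u ^ 4 * (c / a))) / 4 := by
    have : (v ^ 4 * (a ^ 3 / c ^ 3) + 3 * (u ^ 4 * (c / a))) / 4 - u ^ 3 * v =
        ((v * a) ^ 4 + 3 * (u * c) ^ 4 - 4 * (v * a * (u * c) ^ 3)) / (4 * c ^ 3 * a) := by
      field_simp
    have h3 : 0 ≤ ((v * a) ^ 4 + 3 * (u * c) ^ 4 - 4 * (v * a * (u * c) ^ 3)) / (4 * c ^ 3 * a) :=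
      div_nonneg (by linarith) (by positivity)
    linarith
  have e3 : (u ^ 4 * ((c ^ 3 + 3 * c * a ^ 2) / a ^ 3) + v ^ 4 * ((a ^ 3 + 3 * a * c ^ 2) / c ^ 3)) / 8 =
      ((u ^ 4 * (c ^ 3 / a ^ 3) + 3 * (v ^ 4 * (a / c))) / 4 +
        (v ^ 4 * (a ^ 3 / c ^ 3) + 3 * (u ^ 4 * (c / a))) / 4) / 2 := by
    field_simp
    ring
  rw [e3]
  linarith

theorem fH_le' {a c x y : ℝ} (ha : 0 < a) (hc : 0 < c) (hx : 0 ≤ x) (hy : 0 ≤ y) :
    fH x y ≤ (x * (c / a) + y * (a / c)) / 2 := by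
  unfold fH
  refine Real.sqrt_le_iff.2 ⟨by positivity, ?_⟩
  have e : x * y = (x * (c / a)) * (y * (a / c)) := by field_simp
  rw [e]
  nlinarith [sq_nonneg (x * (c / a) - y * (a / c))]

theorem gm_nonneg {L : Vec 3} (hL : NN L) : 0 ≤ gm L :=
  Real.rpow_nonneg (mul_nonneg (mul_nonneg (hL 0) (hL 1)) (hL 2)) _

theorem gm_cube {L : Vec 3} (hL : NN L) : gm L ^ 3 = L 0 * L 1 * L 2 := by
  unfold gm
  rw [← Real.rpow_natCast, ← Real.rpow_mul (mul_nonneg (mul_nonneg (hL 0) (hL 1)) (hL 2))]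
  norm_num

theorem gm_le' {r0 r1 r2 : ℝ} (h0 : 0 ≤ r0) (h1 : 0 ≤ r1) (h2 : 0 ≤ r2) (h : 1 ≤ r0 * r1 * r2) {L : Vec 3}
    (hL : NN L) : 3 * gm L ≤ r0 * L 0 + r1 * L 1 + r2 * L 2 := by
  have hp := mul_nonneg h0 (hL 0)
  have hq := mul_nonneg h1 (hL 1)
  have hr := mul_nonneg h2 (hL 2)
  have hP : 0 ≤ L 0 * L 1 * L 2 := mul_nonneg (mul_nonneg (hL 0) (hL 1)) (hL 2)
  have e1 : L 0 * L 1 * L 2 ≤ (r0 * L 0) * (r1 * L 1) * (r2 * L 2) := by
    have : (r0 * L 0) * (r1 * L 1) * (r2 * L 2) = (r0 * r1 * r2) * (L 0 * L 1 * L 2) := by ring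
    rw [this]
    exact le_mul_of_one_le_left hP h
  refine le_of_pow_le_pow_left₀ (n := 3) (by norm_num) (by positivity) ?_
  rw [mul_pow, gm_cube hL]
  generalize r0 * L 0 = p at *
  generalize r1 * L 1 = q at *
  generalize r2 * L 2 = r at *
  have e2 : (p + q + r) ^ 3 - 27 * (p * q * r) =
      (p + q + r) * ((p - q) ^ 2 + (q - r) ^ 2 + (p - r) ^ 2) / 2 +
        3 * (p * (q - r) ^ 2 + q * (p - r) ^ 2 + r * (p - q) ^ 2) := by ring
  have e3 : 0 ≤ (p + q + r) * ((p - q) ^ 2 + (q - r) ^ 2 + (p - r) ^ 2) / 2 +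
        3 * (p * (q - r) ^ 2 + q * (p - r) ^ 2 + r * (p - q) ^ 2) := by positivity
  linarith

/-- the tangent inequality for `g θ = 1 + k² + σ cos (k θ)` -/
theorem ang_tan (k σ : ℝ) (hσ : σ ^ 2 = 1) (t0 t : ℝ) :
    1 + k ^ 2 + σ * Real.cos (k * t) ≤
      Real.exp (-t0) * (1 + k ^ 2 + σ * Real.cos (k * t0) - σ * k * Real.sin (k * t0)) / 2 * Real.exp t +
      Real.exp t0 * (1 + k ^ 2 + σ * Real.cos (k * t0) + σ * k * Real.sin (k * t0)) / 2 * Real.exp (-t) := by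
  set u : ℝ → ℝ := fun s => Real.exp (-s) * (1 + k ^ 2 + σ * Real.cos (k * s) - σ * k * Real.sin (k * s))
    with hu
  have hk : ∀ s : ℝ, HasDerivAt (fun s : ℝ => k * s) k s := fun s => by
    simpa using (hasDerivAt_id s).const_mul k
  have du : ∀ s, HasDerivAt u (-(Real.exp (-s) * ((1 + k ^ 2) * (1 + σ * Real.cos (k * s))))) s := fun s => by
    have h1 := ((hasDerivAt_neg s).exp).mul
      (((((hk s).cos).const_mul σ).const_add (1 + k ^ 2)).sub (((hk s).sin).const_mul (σ * k)))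
    refine HasDerivAt.congr_deriv h1 ?_
    simp only [Pi.sub_apply]
    ring
  have hc : ∀ s, 0 ≤ 1 + σ * Real.cos s := fun s => by
    nlinarith [sq_nonneg (σ + Real.cos s), Real.cos_sq_le_one s]
  have hanti : Antitone u := antitone_of_deriv_nonpos (fun s => (du s).differentiableAt) fun s => by
    rw [(du s).deriv]
    have := hc (k * s)
    have : 0 ≤ Real.exp (-s) * ((1 + k ^ 2) * (1 + σ * Real.cos (k * s))) := by positivity
    linarith
  set B : ℝ := Real.exp t0 * (1 + k ^ 2 + σ * Real.cos (k * t0) + σ * k * Real.sin (k * t0)) / 2 with hB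
  set ψ : ℝ → ℝ := fun s => u t0 / 2 * Real.exp (2 * s) + B - Real.exp s * (1 + k ^ 2 + σ * Real.cos (k * s))
    with hψ
  have dψ : ∀ s, HasDerivAt ψ (Real.exp (2 * s) * (u t0 - u s)) s := fun s => by
    have h2 : HasDerivAt (fun s : ℝ => 2 * s) 2 s := by simpa using (hasDerivAt_id s).const_mul 2
    have h1 := (((h2.exp).const_mul (u t0 / 2)).add_const B).sub
      ((Real.hasDerivAt_exp s).mul ((((hk s).cos).const_mul σ).const_add (1 + k ^ 2)))
    refine HasDerivAt.congr_deriv h1 ?_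
    have e : Real.exp s = Real.exp (2 * s) * Real.exp (-s) := by
      rw [← Real.exp_add]; congr 1; ring
    have e2 : u s = Real.exp (-s) * (1 + k ^ 2 + σ * Real.cos (k * s) - σ * k * Real.sin (k * s)) := rfl
    rw [e2, e]
    ring
  have ψ0 : ψ t0 = 0 := by
    have e : Real.exp (-t0) * Real.exp (2 * t0) = Real.exp t0 := by
      rw [← Real.exp_add]; congr 1; ring
    have e2 : ψ t0 = Real.exp (-t0) * Real.exp (2 * t0) *
        (1 + k ^ 2 + σ * Real.cos (k * t0) - σ * k * Real.sin (k * t0)) / 2 + B -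
        Real.exp t0 * (1 + k ^ 2 + σ * Real.cos (k * t0)) := by
      simp only [hψ, hu]; ring
    rw [e2, e, hB]
    ring
  have hcont : ∀ S : Set ℝ, ContinuousOn ψ S := fun S s _ => (dψ s).continuousAt.continuousWithinAt
  have hψt : 0 ≤ ψ t := by
    rcases lt_trichotomy t t0 with h | h | h
    · obtain ⟨c, hc1, hc2⟩ := exists_hasDerivAt_eq_slope ψ _ h (hcont _) fun s _ => dψ s
      have h3 : u t0 ≤ u c := hanti hc1.2.le
      have h4 : Real.exp (2 * c) * (u t0 - u c) ≤ 0 :=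
        mul_nonpos_of_nonneg_of_nonpos (Real.exp_pos _).le (by linarith)
      rw [hc2, ψ0, div_nonpos_iff] at h4
      rcases h4 with h4 | h4
      · linarith [h4.2]
      · linarith [h4.1]
    · rw [h, ψ0]
    · obtain ⟨c, hc1, hc2⟩ := exists_hasDerivAt_eq_slope ψ _ h (hcont _) fun s _ => dψ s
      have h3 : u c ≤ u t0 := hanti hc1.1.le
      have h4 : 0 ≤ Real.exp (2 * c) * (u t0 - u c) := mul_nonneg (Real.exp_pos _).le (by linarith)
      rw [hc2, ψ0, div_nonneg_iff] at h4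
      rcases h4 with h4 | h4
      · linarith [h4.1]
      · linarith [h4.2]
  have e1 : Real.exp (2 * t) * Real.exp (-t) = Real.exp t := by
    rw [← Real.exp_add]; congr 1; ring
  have e2 : Real.exp t * Real.exp (-t) = 1 := by
    rw [← Real.exp_add]; simp
  have h5 := mul_nonneg hψt (Real.exp_pos (-t)).le
  have e3 : ψ t * Real.exp (-t) = u t0 / 2 * (Real.exp (2 * t) * Real.exp (-t)) + B * Real.exp (-t) -
      Real.exp t * Real.exp (-t) * (1 + k ^ 2 + σ * Real.cos (k * t)) := by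
    simp only [hψ]; ring
  rw [e3, e1, e2] at h5
  have e4 : u t0 = Real.exp (-t0) * (1 + k ^ 2 + σ * Real.cos (k * t0) - σ * k * Real.sin (k * t0)) := rfl
  rw [← e4]
  linarith

theorem Kf_eq (sg : Bool) (k : ℕ) (x y : ℝ) :
    Kf sg k x y = √(x * y) *
      (1 + (k : ℝ) ^ 2 + cond sg 1 (-1) * Real.cos (k * ((Real.log x - Real.log y) / 2))) := by
  have e : (k : ℝ) / 2 * (Real.log x - Real.log y) = k * ((Real.log x - Real.log y) / 2) := by ring
  unfold Kf fH fC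
  rw [e]
  cases sg <;> simp <;> ring

theorem polar {x y : ℝ} (hx : 0 < x) (hy : 0 < y) :
    √(x * y) * Real.exp ((Real.log x - Real.log y) / 2) = x ∧
      √(x * y) * Real.exp (-((Real.log x - Real.log y) / 2)) = y := by
  have e : √(x * y) = Real.exp ((Real.log x + Real.log y) / 2) := by
    rw [Real.sqrt_eq_iff_mul_self_eq (by positivity) (Real.exp_pos _).le, ← Real.exp_add, add_halves,
      Real.exp_add, Real.exp_log hx, Real.exp_log hy]
  rw [e, ← Real.exp_add, ← Real.exp_add]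
  constructor
  · rw [show (Real.log x + Real.log y) / 2 + (Real.log x - Real.log y) / 2 = Real.log x by ring,
      Real.exp_log hx]
  · rw [show (Real.log x + Real.log y) / 2 + -((Real.log x - Real.log y) / 2) = Real.log y by ring,
      Real.exp_log hy]

theorem Good2.mono {f : ℝ → ℝ → ℝ} (h : Good2 f) {x y x' y' : ℝ} (hx : 0 ≤ x) (hy : 0 ≤ y) (h1 : x ≤ x')
    (h2 : y ≤ y') : f x y ≤ f x' y' := by
  have h3 := h.add x y (x' - x) (y' - y) hx hy (by linarith) (by linarith)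
  have h4 := h.nonneg (x' - x) (y' - y) (by linarith) (by linarith)
  rw [add_sub_cancel, add_sub_cancel] at h3
  linarith
theorem Good2.good_prs {f : ℝ → ℝ → ℝ} (h : Good2 f) : Good (prs f) := by
  refine ⟨fun L hL => ?_, fun L L' hL hL' => ?_, fun c L hc hL => ?_⟩
  · exact add_nonneg (add_nonneg (h.nonneg _ _ (hL 0) (hL 1)) (h.nonneg _ _ (hL 0) (hL 2)))
      (h.nonneg _ _ (hL 1) (hL 2))
  · have h1 := h.add _ _ _ _ (hL 0) (hL 1) (hL' 0) (hL' 1)
    have h2 := h.add _ _ _ _ (hL 0) (hL 2) (hL' 0) (hL' 2)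
    have h3 := h.add _ _ _ _ (hL 1) (hL 2) (hL' 1) (hL' 2)
    simp only [prs, Pi.add_apply]
    linarith
  · simp only [prs, Pi.smul_apply, smul_eq_mul]
    rw [h.smul _ _ _ hc (hL 0) (hL 1), h.smul _ _ _ hc (hL 0) (hL 2), h.smul _ _ _ hc (hL 1) (hL 2)]
    ring
theorem good2_fQ : Good2 fQ := by
  refine ⟨fun x y hx hy => ?_, add_of_tan (fun y => ?_) (fun x => ?_) fun x0 y0 hx hy => ?_,
    fun c x y hc hx hy => ?_, fun x y => ?_⟩
  · unfold fQ
    positivity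
  · simp [fQ]
  · simp [fQ]
  · obtain ⟨a, ha, rfl⟩ := exists_pow4 hx.le
    obtain ⟨c, hc, rfl⟩ := exists_pow4 hy.le
    have ha' : 0 < a := lt_of_le_of_ne ha fun h => by simp [← h] at hx
    have hc' : 0 < c := lt_of_le_of_ne hc fun h => by simp [← h] at hy
    refine ⟨(c ^ 3 + 3 * c * a ^ 2) / a ^ 3 / 8, (a ^ 3 + 3 * a * c ^ 2) / c ^ 3 / 8,
      fun x y hx hy => (fQ_le' ha' hc' hx hy).trans (le_of_eq (by ring)), le_of_eq ?_⟩
    rw [fQ_pow4 ha hc]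
    field_simp
    ring
  · obtain ⟨a, ha, rfl⟩ := exists_pow4 hc
    obtain ⟨u, hu, rfl⟩ := exists_pow4 hx
    obtain ⟨v, hv, rfl⟩ := exists_pow4 hy
    rw [← mul_pow, ← mul_pow, fQ_pow4 (mul_nonneg ha hu) (mul_nonneg ha hv), fQ_pow4 hu hv]
    ring
  · unfold fQ
    ring
theorem good2_fH : Good2 fH := by
  refine ⟨fun x y _ _ => Real.sqrt_nonneg _, add_of_tan (fun y => ?_) (fun x => ?_) fun x0 y0 hx hy => ?_,
    fun c x y hc hx hy => ?_, fun x y => ?_⟩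
  · simp [fH]
  · simp [fH]
  · have ha := Real.sqrt_pos.2 hx
    have hc := Real.sqrt_pos.2 hy
    refine ⟨√y0 / √x0 / 2, √x0 / √y0 / 2,
      fun x y hx hy => (fH_le' ha hc hx hy).trans (le_of_eq (by ring)), le_of_eq ?_⟩
    have e := fH_sq ha.le hc.le
    have e1 := Real.sq_sqrt hx.le
    have e2 := Real.sq_sqrt hy.le
    rw [e1, e2] at e
    rw [e]
    generalize √x0 = a at *
    generalize √y0 = c at *
    rw [← e1, ← e2]
    field_simp
    ring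
  · unfold fH
    rw [show c * x * (c * y) = c ^ 2 * (x * y) by ring, Real.sqrt_mul (sq_nonneg c), Real.sqrt_sq hc]
  · unfold fH
    rw [mul_comm]
theorem good2_Kf (sg : Bool) (k : ℕ) : Good2 (Kf sg k) := by
  have hσ : (cond sg 1 (-1) : ℝ) ^ 2 = 1 := by cases sg <;> simp
  refine ⟨fun x y _ _ => ?_, add_of_tan (fun y => ?_) (fun x => ?_) fun x0 y0 hx0 hy0 => ?_,
    fun c x y hc hx hy => ?_, fun x y => ?_⟩
  · rw [Kf_eq]
    generalize (cond sg 1 (-1) : ℝ) = σ at *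
    refine mul_nonneg (Real.sqrt_nonneg _) ?_
    generalize (k : ℝ) * ((Real.log x - Real.log y) / 2) = s
    nlinarith [sq_nonneg (σ + Real.cos s), Real.cos_sq_le_one s, sq_nonneg (k : ℝ)]
  · simp [Kf_eq]
  · simp [Kf_eq]
  · simp only [Kf_eq]
    generalize (cond sg 1 (-1) : ℝ) = σ at *
    obtain ⟨p1, p2⟩ := polar hx0 hy0
    generalize (Real.log x0 - Real.log y0) / 2 = t0 at *
    refine ⟨Real.exp (-t0) * (1 + k ^ 2 + σ * Real.cos (k * t0) - σ * k * Real.sin (k * t0)) / 2,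
      Real.exp t0 * (1 + k ^ 2 + σ * Real.cos (k * t0) + σ * k * Real.sin (k * t0)) / 2,
      fun x y hx hy => ?_, le_of_eq ?_⟩
    · have hs := Real.sin_sq_add_cos_sq (k * t0)
      have hA : 0 ≤ 1 + k ^ 2 + σ * Real.cos (k * t0) - σ * k * Real.sin (k * t0) := by
        nlinarith [sq_nonneg (σ + Real.cos (k * t0)), sq_nonneg (σ * k - Real.sin (k * t0)),
          sq_nonneg (k : ℝ)]
      have hB : 0 ≤ 1 + k ^ 2 + σ * Real.cos (k * t0) + σ * k * Real.sin (k * t0) := by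
        nlinarith [sq_nonneg (σ + Real.cos (k * t0)), sq_nonneg (σ * k + Real.sin (k * t0)),
          sq_nonneg (k : ℝ)]
      rcases hx.eq_or_lt with h | hx'
      · rw [← h, zero_mul, Real.sqrt_zero, zero_mul]
        positivity
      rcases hy.eq_or_lt with h | hy'
      · rw [← h, mul_zero, Real.sqrt_zero, zero_mul]
        positivity
      obtain ⟨q1, q2⟩ := polar hx' hy'
      generalize (Real.log x - Real.log y) / 2 = t at *
      have h1 := mul_le_mul_of_nonneg_left (ang_tan k σ hσ t0 t) (Real.sqrt_nonneg (x * y))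
      generalize √(x * y) = m at *
      rw [← q1, ← q2]
      linarith
    · have e2 : Real.exp t0 * Real.exp (-t0) = 1 := by
        rw [← Real.exp_add]; simp
      generalize √(x0 * y0) = m at *
      rw [← p1, ← p2]
      linear_combination (m * (1 + k ^ 2 + σ * Real.cos (k * t0))) * e2
  · simp only [Kf_eq]
    rcases hc.eq_or_lt with h | hc'
    · simp [← h]
    rcases hx.eq_or_lt with h | hx'
    · simp [← h]
    rcases hy.eq_or_lt with h | hy'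
    · simp [← h]
    rw [show c * x * (c * y) = c ^ 2 * (x * y) by ring, Real.sqrt_mul (sq_nonneg c), Real.sqrt_sq hc,
      Real.log_mul hc'.ne' hx'.ne', Real.log_mul hc'.ne' hy'.ne', add_sub_add_left_eq_sub]
    ring
  · simp only [Kf_eq]
    rw [mul_comm x y, ← Real.cos_neg]
    congr 4
    ring
theorem good_gm : Good gm := by
  refine ⟨fun L hL => gm_nonneg hL, fun L L' hL hL' => ?_, fun c L hc hL => ?_⟩
  · have hM : NN (L + L') := fun i => add_nonneg (hL i) (hL' i)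
    by_cases hz : ∃ i, L i + L' i = 0
    · obtain ⟨i, hi⟩ := hz
      have z : ∀ K : Vec 3, NN K → K i = 0 → gm K = 0 := fun K hK h => by
        refine pow_eq_zero_iff (n := 3) (by norm_num) |>.1 ?_
        rw [gm_cube hK]
        fin_cases i <;> simp_all
      rw [z L hL (by linarith [hL i, hL' i]), z L' hL' (by linarith [hL i, hL' i]), add_zero]
      exact gm_nonneg hM
    · have hp : ∀ i, 0 < L i + L' i := fun i =>
        lt_of_le_of_ne (add_nonneg (hL i) (hL' i)) fun h => hz ⟨i, h.symm⟩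
      have hg := gm_nonneg hM
      have h3 := gm_cube hM
      simp only [Pi.add_apply] at h3
      generalize gm (L + L') = g at *
      have p0 := hp 0
      have p1 := hp 1
      have p2 := hp 2
      have hr : 1 ≤ g / (L 0 + L' 0) * (g / (L 1 + L' 1)) * (g / (L 2 + L' 2)) := by
        refine le_of_eq ?_
        field_simp
        linarith
      have a1 := gm_le' (div_nonneg hg p0.le) (div_nonneg hg p1.le) (div_nonneg hg p2.le) hr hL
      have a2 := gm_le' (div_nonneg hg p0.le) (div_nonneg hg p1.le) (div_nonneg hg p2.le) hr hL'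
      have b0 : g / (L 0 + L' 0) * (L 0 + L' 0) = g := div_mul_cancel₀ _ p0.ne'
      have b1 : g / (L 1 + L' 1) * (L 1 + L' 1) = g := div_mul_cancel₀ _ p1.ne'
      have b2 : g / (L 2 + L' 2) * (L 2 + L' 2) = g := div_mul_cancel₀ _ p2.ne'
      linarith
  · have hM : NN (c • L) := fun i => mul_nonneg hc (hL i)
    refine (pow_left_inj₀ (n := 3) (gm_nonneg hM) (mul_nonneg hc (gm_nonneg hL)) (by norm_num)).1 ?_
    rw [mul_pow, gm_cube hM, gm_cube hL]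
    simp only [Pi.smul_apply, smul_eq_mul]
    ring

theorem fQ_le {a c x y : ℝ} (ha : 0 < a) (hc : 0 < c) (hx : 0 ≤ x) (hy : 0 ≤ y) :
    fQ x y ≤ (x * ((c ^ 3 + 3 * c * a ^ 2) / a ^ 3) + y * ((a ^ 3 + 3 * a * c ^ 2) / c ^ 3)) / 8 :=
  fQ_le' ha hc hx hy
theorem fH_le {a c x y : ℝ} (ha : 0 < a) (hc : 0 < c) (hx : 0 ≤ x) (hy : 0 ≤ y) :
    fH x y ≤ (x * (c / a) + y * (a / c)) / 2 :=
  fH_le' ha hc hx hy
theorem gm_le {r0 r1 r2 : ℝ} (h0 : 0 ≤ r0) (h1 : 0 ≤ r1) (h2 : 0 ≤ r2) (h : 1 ≤ r0 * r1 * r2) {L : Vec 3}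
    (hL : NN L) : 3 * gm L ≤ r0 * L 0 + r1 * L 1 + r2 * L 2 :=
  gm_le' h0 h1 h2 h hL
theorem le_fQ {a c x y : ℝ} (ha : 0 ≤ a) (hc : 0 ≤ c) (hx : a ^ 4 ≤ x) (hy : c ^ 4 ≤ y) :
    a * c * (a * a + c * c) / 2 ≤ fQ x y := by
  have h := good2_fQ.mono (by positivity) (by positivity) hx hy
  rw [fQ_pow4 ha hc] at h
  linarith
theorem le_fH {a c x y : ℝ} (ha : 0 ≤ a) (hc : 0 ≤ c) (hx : a ^ 4 ≤ x) (hy : c ^ 4 ≤ y) :
    a * a * (c * c) ≤ fH x y := by
  have h := good2_fH.mono (by positivity) (by positivity) hx hy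
  have e := fH_sq (sq_nonneg a) (sq_nonneg c)
  rw [← pow_mul, ← pow_mul] at e
  rw [e] at h
  linarith
theorem le_gm {g : ℝ} {L : Vec 3} (hL : NN L) (h : g ^ 3 ≤ L 0 * L 1 * L 2) : g ≤ gm L := by
  refine le_of_pow_le_pow_left₀ (n := 3) (by norm_num) (gm_nonneg hL) ?_
  rwa [gm_cube hL]
theorem cC1_tan {l0 l1 l2 : ℝ} (h0 : 0 ≤ l0) (h1 : 0 ≤ l1) (h2 : 0 ≤ l2) {L : Vec 3} (hL : NN L)
    (hS : 0 < sS L) : 3 * (l0 ^ 2 * L 0 + l1 ^ 2 * L 1 + l2 ^ 2 * L 2) -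
      2 * (l0 ^ 3 + l1 ^ 3 + l2 ^ 3) * sS L ≤ cC1 L := by
  have key : ∀ l x : ℝ, 0 ≤ l → 0 ≤ x → (3 * l ^ 2 * x - 2 * l ^ 3 * sS L) * sS L ^ 2 ≤ x ^ 3 :=
    fun l x hl hx => by
      have e : x ^ 3 - (3 * l ^ 2 * x - 2 * l ^ 3 * sS L) * sS L ^ 2 =
          (x - l * sS L) ^ 2 * (x + 2 * l * sS L) := by ring
      have : 0 ≤ (x - l * sS L) ^ 2 * (x + 2 * l * sS L) := by positivity
      linarith
  unfold cC1
  rw [le_div_iff₀ (by positivity)]
  linarith [key l0 _ h0 (hL 0), key l1 _ h1 (hL 1), key l2 _ h2 (hL 2)]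
theorem cC2_tan (l0 l1 l2 : ℝ) {L : Vec 3} (hS : 0 < sS L) :
    2 * (l0 * L 0 + l1 * L 1 + l2 * L 2) - (l0 ^ 2 + l1 ^ 2 + l2 ^ 2) * sS L ≤ cC2 L := by
  unfold cC2
  rw [le_div_iff₀ hS]
  nlinarith [sq_nonneg (L 0 - l0 * sS L), sq_nonneg (L 1 - l1 * sS L), sq_nonneg (L 2 - l2 * sS L)]

/-- a linear form -/
noncomputable def dot (τ L : Vec 3) : ℝ := τ 0 * L 0 + τ 1 * L 1 + τ 2 * L 2

/-- valid tangent data -/
structure TanOk (Q H B G C D : Vec 3) : Prop where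
  hQ : ∀ L, NN L → prs fQ L ≤ dot Q L
  hH : ∀ L, NN L → prs fH L ≤ dot H L
  hB : ∀ L, NN L → prs fH L ≤ dot B L
  hG : ∀ L, NN L → 3 * gm L ≤ dot G L
  hC : ∀ L, NN L → 0 < sS L → dot C L ≤ cC1 L + 2 * sS L
  hD : ∀ L, NN L → 0 < sS L → dot D L ≤ cC2 L + sS L

/-- the inequality checked at a vertex -/
def VIneq (o : Co) (c : Cf) (Q H B G C D v : Vec 3) : Prop :=
  o.vN v + (o.aQ * dot Q v + o.aH * dot H v + o.wH * dot B (c.bv v) + o.nM * dot G (c.bv v)) ≤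
    o.vP c v + o.kp * dot C v + o.km * dot D v

theorem exists_interp {a b x : ℝ} (h1 : a ≤ x) (h2 : x ≤ b) :
    ∃ s : ℝ, 0 ≤ s ∧ s ≤ 1 ∧ x = (1 - s) * a + s * b := by
  rcases (h1.trans h2).eq_or_lt with h | h
  · exact ⟨0, le_rfl, zero_le_one, by linarith⟩
  · have hp : 0 < b - a := by linarith
    refine ⟨(x - a) / (b - a), div_nonneg (by linarith) hp.le, (div_le_one hp).2 (by linarith), ?_⟩
    field_simp
    ring

theorem vec_ok {x r : ℝ} (hx : 0 ≤ x) (hr : 0 ≤ r) : NN (vec x r) ∧ 0 < sS (vec x r) := by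
  have h0 : (0 : ℝ) < n2 := by unfold n2; positivity
  have h1 : (0 : ℝ) ≤ x * nN := by positivity
  have h2 : 0 ≤ x * r := by positivity
  refine ⟨fun i => ?_, ?_⟩
  · fin_cases i
    · exact h0.le
    · exact h1
    · exact h2
  · show 0 < (n2 : ℝ) + x * nN + x * r
    linarith

theorem bv_nn {c : Cf} (hle : c.cL ≤ c.cS) {L : Vec 3} (hL : NN L) : NN (c.bv L) := fun i => by
  have h1 : L i ≤ sS L := by
    have h0 := hL 0
    have h1 := hL 1
    have h2 := hL 2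
    unfold sS
    fin_cases i <;> simp <;> linarith
  have h2 : (c.cL : ℝ) ≤ c.cS := by exact_mod_cast hle
  have h3 := mul_le_mul h2 h1 (hL i) (Nat.cast_nonneg _)
  unfold Cf.bv
  linarith

theorem good_bv {ψ : Vec 3 → ℝ} (h : Good ψ) {c : Cf} (hle : c.cL ≤ c.cS) : Good fun L => ψ (c.bv L) := by
  refine ⟨fun L hL => h.nonneg _ (bv_nn hle hL), fun L L' hL hL' => ?_, fun a L ha hL => ?_⟩
  · have e : c.bv (L + L') = c.bv L + c.bv L' := by
      funext i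
      simp only [Cf.bv, sS, Pi.add_apply]
      ring
    rw [e]
    exact h.add _ _ (bv_nn hle hL) (bv_nn hle hL')
  · have e : c.bv (a • L) = a • c.bv L := by
      funext i
      simp only [Cf.bv, sS, Pi.smul_apply, smul_eq_mul]
      ring
    rw [e]
    exact h.smul _ _ ha (bv_nn hle hL)

theorem good_nat {ψ : Vec 3 → ℝ} (h : Good ψ) (n : ℕ) : Good fun L => (n : ℝ) * ψ L := by
  refine ⟨fun L hL => mul_nonneg (Nat.cast_nonneg n) (h.nonneg L hL), fun L L' hL hL' => ?_,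
    fun a L ha hL => ?_⟩
  · linarith [mul_le_mul_of_nonneg_left (h.add L L' hL hL') (Nat.cast_nonneg n)]
  · rw [h.smul a L ha hL]
    ring

theorem good_plus {ψ φ : Vec 3 → ℝ} (h : Good ψ) (h' : Good φ) : Good fun L => ψ L + φ L := by
  refine ⟨fun L hL => add_nonneg (h.nonneg L hL) (h'.nonneg L hL), fun L L' hL hL' => ?_,
    fun a L ha hL => ?_⟩
  · linarith [h.add L L' hL hL', h'.add L L' hL hL']
  · rw [h.smul a L ha hL, h'.smul a L ha hL]
    ring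

theorem good_sS : Good sS := by
  refine ⟨fun L hL => add_nonneg (add_nonneg (hL 0) (hL 1)) (hL 2), fun L L' _ _ => le_of_eq ?_,
    fun a L _ _ => ?_⟩
  · simp only [sS, Pi.add_apply]
    ring
  · simp only [sS, Pi.smul_apply, smul_eq_mul]
    ring

theorem good_vP (o : Co) {c : Cf} (hle : c.cL ≤ c.cS) : Good (o.vP c) :=
  good_plus (good_plus (good_plus (good_plus (good_plus (good_plus (good_plus (good_plus (good_plus
    (good_plus (good_plus (good_plus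
      (good_nat (good_bv good2_fQ.good_prs hle) o.uQ) (good_nat (good_bv good2_fH.good_prs hle) o.uH))
      (good_nat (good_bv (good2_Kf true 1).good_prs hle) o.u1))
      (good_nat (good_bv (good2_Kf true 2).good_prs hle) o.u2))
      (good_nat (good_bv (good2_Kf true 3).good_prs hle) o.u3))
      (good_nat (good_bv (good2_Kf true 4).good_prs hle) o.u4))
      (good_nat (good2_Kf false 1).good_prs o.k1)) (good_nat (good2_Kf false 2).good_prs o.k2))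
      (good_nat (good2_Kf false 3).good_prs o.k3)) (good_nat (good2_Kf false 4).good_prs o.k4))
      (good_nat good_gm o.eG)) (good_nat (good_bv good_gm hle) o.nP)) (good_nat good_sS o.cP)

theorem good_comb {ψ : Vec 3 → ℝ} (h : Good ψ) {a b c d : ℝ} (ha : 0 ≤ a) (hb : 0 ≤ b) (hc : 0 ≤ c)
    (hd : 0 ≤ d) {u v w z : Vec 3} (hu : NN u) (hv : NN v) (hw : NN w) (hz : NN z) :
    a * ψ u + b * ψ v + c * ψ w + d * ψ z ≤ ψ (a • u + b • v + c • w + d • z) := by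
  have n1 : NN (a • u) := fun i => mul_nonneg ha (hu i)
  have n2 : NN (b • v) := fun i => mul_nonneg hb (hv i)
  have n3 : NN (c • w) := fun i => mul_nonneg hc (hw i)
  have n4 : NN (d • z) := fun i => mul_nonneg hd (hz i)
  have n5 : NN (a • u + b • v) := fun i => add_nonneg (n1 i) (n2 i)
  have n6 : NN (a • u + b • v + c • w) := fun i => add_nonneg (n5 i) (n3 i)
  have e1 := h.add _ _ n1 n2
  have e2 := h.add _ _ n5 n3
  have e3 := h.add _ _ n6 n4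
  rw [h.smul a u ha hu, h.smul b v hb hv] at e1
  rw [h.smul c w hc hw] at e2
  rw [h.smul d z hd hz] at e3
  linarith

theorem exists_lin {o : Co} {c : Cf} (Q H B G C D : Vec 3) {v : Vec 3} (hN : NN v) (hS : 0 < sS v) :
    ∃ τ : Vec 3, (∀ L, NN L → 0 < sS L → VIneq o c Q H B G C D L → dot τ L ≤ o.vP c L) ∧
      dot τ v = o.vN v + (o.aQ * dot Q v + o.aH * dot H v + o.wH * dot B (c.bv v) + o.nM * dot G (c.bv v)) -
        (o.kp * dot C v + o.km * dot D v) := by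
  obtain ⟨l0, hl0⟩ : ∃ l, l = v 0 / sS v := ⟨_, rfl⟩
  obtain ⟨l1, hl1⟩ : ∃ l, l = v 1 / sS v := ⟨_, rfl⟩
  obtain ⟨l2, hl2⟩ : ∃ l, l = v 2 / sS v := ⟨_, rfl⟩
  have p0 : 0 ≤ l0 := hl0 ▸ div_nonneg (hN 0) hS.le
  have p1 : 0 ≤ l1 := hl1 ▸ div_nonneg (hN 1) hS.le
  have p2 : 0 ≤ l2 := hl2 ▸ div_nonneg (hN 2) hS.le
  obtain ⟨τ, hτ⟩ : ∃ τ : Vec 3, ∀ L : Vec 3, dot τ L =
      o.km * (3 * (l0 ^ 2 * L 0 + l1 ^ 2 * L 1 + l2 ^ 2 * L 2) - 2 * (l0 ^ 3 + l1 ^ 3 + l2 ^ 3) * sS L) +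
      o.kp * (2 * (l0 * L 0 + l1 * L 1 + l2 * L 2) - (l0 ^ 2 + l1 ^ 2 + l2 ^ 2) * sS L) + o.cM * sS L +
      (o.aQ * dot Q L + o.aH * dot H L + o.wH * dot B (c.bv L) + o.nM * dot G (c.bv L)) -
        (o.kp * dot C L + o.km * dot D L) := by
    refine ⟨fun i => o.km * (3 * (![l0, l1, l2] i) ^ 2 - 2 * (l0 ^ 3 + l1 ^ 3 + l2 ^ 3)) +
      o.kp * (2 * ![l0, l1, l2] i - (l0 ^ 2 + l1 ^ 2 + l2 ^ 2)) + o.cM +
      (o.aQ * Q i + o.aH * H i + o.wH * c.bv B i + o.nM * c.bv G i) - (o.kp * C i + o.km * D i),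
      fun L => ?_⟩
    simp only [dot, Cf.bv, sS, Matrix.cons_val_zero, Matrix.cons_val_one, Matrix.cons_val]
    ring
  refine ⟨τ, fun L hL hSL hV => ?_, ?_⟩
  · have a1 := mul_le_mul_of_nonneg_left (cC1_tan p0 p1 p2 hL hSL) (Nat.cast_nonneg o.km)
    have a2 := mul_le_mul_of_nonneg_left (cC2_tan l0 l1 l2 hSL) (Nat.cast_nonneg o.kp)
    unfold VIneq Co.vN at hV
    rw [hτ]
    linarith
  · have e1 : 3 * (l0 ^ 2 * v 0 + l1 ^ 2 * v 1 + l2 ^ 2 * v 2) - 2 * (l0 ^ 3 + l1 ^ 3 + l2 ^ 3) * sS v =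
        cC1 v := by
      rw [hl0, hl1, hl2, cC1]
      field_simp
      ring
    have e2 : 2 * (l0 * v 0 + l1 * v 1 + l2 * v 2) - (l0 ^ 2 + l1 ^ 2 + l2 ^ 2) * sS v = cC2 v := by
      rw [hl0, hl1, hl2, cC2]
      field_simp
      ring
    rw [hτ, e1, e2, Co.vN]

/-- bilinear interpolation: `vec x r` is a convex combination of the four vertices (degenerate cells included), `c.bv` is linear and
preserves `NN`, `o.vP c` is superadditive and homogeneous, `o.vN` is convex on `sS > 0` -/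
theorem cell_nf {o : Co} {c : Cf} (hle : c.cL ≤ c.cS) {Q H B G C D : Vec 3} (ht : TanOk Q H B G C D)
    {x0 x1 r0 r1 x r : ℝ} (hx0 : 0 ≤ x0) (hr0 : 0 ≤ r0) (h1 : x0 ≤ x) (h2 : x ≤ x1) (h3 : r0 ≤ r) (h4 : r ≤ r1)
    (v00 : VIneq o c Q H B G C D (vec x0 r0)) (v01 : VIneq o c Q H B G C D (vec x0 r1))
    (v10 : VIneq o c Q H B G C D (vec x1 r0)) (v11 : VIneq o c Q H B G C D (vec x1 r1)) :
    0 ≤ o.nf c (vec x r) := by
  obtain ⟨s, hs0, hs1, hs⟩ := exists_interp h1 h2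
  obtain ⟨t, ht0, ht1, htt⟩ := exists_interp h3 h4
  have hx : 0 ≤ x := hx0.trans h1
  have hr : 0 ≤ r := hr0.trans h3
  have hx1 : 0 ≤ x1 := hx.trans h2
  have hr1 : 0 ≤ r1 := hr.trans h4
  have hv : vec x r = ((1 - s) * (1 - t)) • vec x0 r0 + ((1 - s) * t) • vec x0 r1 +
      (s * (1 - t)) • vec x1 r0 + (s * t) • vec x1 r1 := by
    funext i
    rw [hs, htt]
    fin_cases i <;> simp [vec] <;> ring
  have w00 : 0 ≤ (1 - s) * (1 - t) := mul_nonneg (by linarith) (by linarith)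
  have w01 : 0 ≤ (1 - s) * t := mul_nonneg (by linarith) ht0
  have w10 : 0 ≤ s * (1 - t) := mul_nonneg hs0 (by linarith)
  have w11 : 0 ≤ s * t := mul_nonneg hs0 ht0
  obtain ⟨hN, hS⟩ := vec_ok hx hr
  obtain ⟨τ, hτ, hτv⟩ := exists_lin (o := o) (c := c) Q H B G C D hN hS
  have f00 := hτ _ (vec_ok hx0 hr0).1 (vec_ok hx0 hr0).2 v00
  have f01 := hτ _ (vec_ok hx0 hr1).1 (vec_ok hx0 hr1).2 v01
  have f10 := hτ _ (vec_ok hx1 hr0).1 (vec_ok hx1 hr0).2 v10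
  have f11 := hτ _ (vec_ok hx1 hr1).1 (vec_ok hx1 hr1).2 v11
  have g := good_comb (good_vP o hle) w00 w01 w10 w11 (vec_ok hx0 hr0).1 (vec_ok hx0 hr1).1
    (vec_ok hx1 hr0).1 (vec_ok hx1 hr1).1
  rw [← hv] at g
  have hd : dot τ (vec x r) = (1 - s) * (1 - t) * dot τ (vec x0 r0) + (1 - s) * t * dot τ (vec x0 r1) +
      s * (1 - t) * dot τ (vec x1 r0) + s * t * dot τ (vec x1 r1) := by
    rw [hv]
    simp only [dot, Pi.add_apply, Pi.smul_apply, smul_eq_mul]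
    ring
  have k1 : dot τ (vec x r) ≤ o.vP c (vec x r) := by
    rw [hd]
    linarith [mul_le_mul_of_nonneg_left f00 w00, mul_le_mul_of_nonneg_left f01 w01,
      mul_le_mul_of_nonneg_left f10 w10, mul_le_mul_of_nonneg_left f11 w11]
  have hb := bv_nn hle hN
  have a1 := mul_le_mul_of_nonneg_left (ht.hQ _ hN) (Nat.cast_nonneg o.aQ)
  have a2 := mul_le_mul_of_nonneg_left (ht.hH _ hN) (Nat.cast_nonneg o.aH)
  have a3 := mul_le_mul_of_nonneg_left (ht.hB _ hb) (Nat.cast_nonneg o.wH)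
  have a4 := mul_le_mul_of_nonneg_left (ht.hG _ hb) (Nat.cast_nonneg o.nM)
  have a5 := mul_le_mul_of_nonneg_left (ht.hC _ hN hS) (Nat.cast_nonneg o.kp)
  have a6 := mul_le_mul_of_nonneg_left (ht.hD _ hN hS) (Nat.cast_nonneg o.km)
  unfold Co.nf
  linarith

end Crest.Agent.R163.E3
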