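import Crest.Agent.R163.E3.Defs
import Crest.Agent.R163.ALimit
import Crest.Agent.R163.Sort

/-!
# R163/E3/NF: the normal form of `F3`; reduction to sorted vectors

`mS (sP (sig j)) L = prs f L / 3` (`alim_mS_sP`, `alim_sum_perm3`; `f = fQ, fH, fC 1, …, fC 4`; for zero entries both sides vanish), `mS sG = gm` (`mS_sG_eq`),
`Pm (-t) L = D⁻¹ • c.bv L`, homogeneity (`hom_mS`), `avg L * p3 L = 3 cC1 - 3 cC2 + 2/3 sS`, and `((a - b : ℕ) : ℝ) - ((b - a : ℕ) : ℝ) = a - b`.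
`Holds.final`: sort `L` (`srt_exists_anti`), `L ∘ σ = (L_max / N²) • vec x r` with `x = N L1/L0`, `r = N L2/L1` (`r = 0` if `L1 = 0`); `up 0 = 0`, `up 65536 = nN`,
`n2 = nN²` (`decide`/`norm_num`); `F3` is symmetric and homogeneous (`mS_comp`, `Pm_comp`, `hom_mS`, …) and vanishes at `0`; if the smallest entry is at least `3/4` of the largest, then `pq ≤ 1/50`.
-/

set_option autoImplicit false

namespace Crest.Agent.R163.E3

open E2 Finset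

theorem cf50_ok : cf50.Ok (1 / 2) 2 := by
  constructor <;> norm_num [cf50]
theorem cf45_ok : cf45.Ok (9 / 20) 60 := by
  constructor <;> norm_num [cf45]

theorem nf_pair_Q {x y : ℝ} (hx : 0 ≤ x) (hy : 0 ≤ y) :
    (((x : ℝ) : ℂ) ^ (1 / 4 : ℂ) * ((y : ℝ) : ℂ) ^ (1 - 1 / 4 : ℂ)).re =
      x ^ (1 / 4 : ℝ) * y ^ (3 / 4 : ℝ) := by
  have e1 : (1 / 4 : ℂ) = ((1 / 4 : ℝ) : ℂ) := by push_cast; rfl
  have e2 : (1 - 1 / 4 : ℂ) = ((3 / 4 : ℝ) : ℂ) := by push_cast; norm_num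
  rw [e2, e1, ← Complex.ofReal_cpow hx, ← Complex.ofReal_cpow hy, ← Complex.ofReal_mul, Complex.ofReal_re]

theorem nf_pair_C {σ : ℂ} {k : ℕ} (h1 : σ.re = 1 / 2) (h2 : σ.im = k / 2) {x y : ℝ} (hx : 0 ≤ x)
    (hy : 0 ≤ y) : (((x : ℝ) : ℂ) ^ σ * ((y : ℝ) : ℂ) ^ (1 - σ)).re = fC k x y := by
  unfold fC
  rcases hx.eq_or_lt with rfl | hx
  · have : σ ≠ 0 := by
      rintro rfl
      norm_num at h1
    simp [Complex.zero_cpow this]
  rcases hy.eq_or_lt with rfl | hy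
  · have : 1 - σ ≠ 0 := by
      intro h
      have := congrArg Complex.re h
      simp [h1] at this
      norm_num at this
    simp [Complex.zero_cpow this]
  rw [Complex.cpow_def_of_ne_zero (Complex.ofReal_ne_zero.2 hx.ne'),
    Complex.cpow_def_of_ne_zero (Complex.ofReal_ne_zero.2 hy.ne'), ← Complex.exp_add,
    ← Complex.ofReal_log hx.le, ← Complex.ofReal_log hy.le, Complex.exp_re, Real.sqrt_eq_rpow,
    Real.rpow_def_of_pos (mul_pos hx hy), Real.log_mul hx.ne' hy.ne']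
  simp only [Complex.add_re, Complex.add_im, Complex.mul_re, Complex.mul_im, Complex.ofReal_re,
    Complex.ofReal_im, Complex.sub_re, Complex.sub_im, Complex.one_re, Complex.one_im, h1, h2]
  congr 2 <;> ring

theorem nf_fC_symm (k : ℕ) (x y : ℝ) : fC k x y = fC k y x := by
  unfold fC
  rw [mul_comm x y, ← Real.cos_neg]
  congr 2
  ring

theorem nf_mS_Q {L : Vec 3} (h : NN L) : mS (sP (sig 0)) L = prs fQ L / 3 := by
  rw [alim_mS_sP, alim_sum_perm3 fun i k => (((L i : ℝ) : ℂ) ^ sig 0 * ((L k : ℝ) : ℂ) ^ (1 - sig 0)).re]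
  have e : sig 0 = 1 / 4 := rfl
  simp only [e, nf_pair_Q (h _) (h _), prs, fQ]
  ring

theorem nf_mS_C {σ : ℂ} {k : ℕ} (h1 : σ.re = 1 / 2) (h2 : σ.im = k / 2) {L : Vec 3} (h : NN L) :
    mS (sP σ) L = prs (fC k) L / 3 := by
  rw [alim_mS_sP, alim_sum_perm3 fun i k => (((L i : ℝ) : ℂ) ^ σ * ((L k : ℝ) : ℂ) ^ (1 - σ)).re]
  simp only [nf_pair_C h1 h2 (h _) (h _), prs]
  rw [nf_fC_symm k (L 1) (L 0), nf_fC_symm k (L 2) (L 0), nf_fC_symm k (L 2) (L 1)]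
  ring

theorem nf_mS_H {L : Vec 3} (h : NN L) : mS (sP (sig 1)) L = prs fH L / 3 := by
  rw [nf_mS_C (k := 0) (by simp [sig]) (by simp [sig]) h]
  simp [prs, fC, fH]

theorem nf_mS_1 {L : Vec 3} (h : NN L) : mS (sP (sig 2)) L = prs (fC 1) L / 3 :=
  nf_mS_C (by simp [sig]) (by simp [sig]) h
theorem nf_mS_2 {L : Vec 3} (h : NN L) : mS (sP (sig 3)) L = prs (fC 2) L / 3 :=
  nf_mS_C (by simp [sig]) (by simp [sig]) h
theorem nf_mS_3 {L : Vec 3} (h : NN L) : mS (sP (sig 4)) L = prs (fC 3) L / 3 :=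
  nf_mS_C (by simp [sig]) (by simp [sig]) h
theorem nf_mS_4 {L : Vec 3} (h : NN L) : mS (sP (sig 5)) L = prs (fC 4) L / 3 :=
  nf_mS_C (by simp [sig]) (by simp [sig]; norm_num) h

theorem nf_avg (L : Vec 3) : avg L = sS L / 3 := by
  simp [avg, sS, Fin.sum_univ_three]

theorem nf_p3 {L : Vec 3} (hS : 0 < sS L) : avg L * p3 L = 3 * cC1 L - 3 * cC2 L + 2 / 3 * sS L := by
  unfold p3 cC1 cC2
  rw [nf_avg, nf_avg]
  have e : L 2 = sS L - L 0 - L 1 := by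
    unfold sS
    ring
  simp only [sS] at e ⊢
  have hS' : L 0 + L 1 + L 2 ≠ 0 := hS.ne'
  field_simp
  ring

theorem nf_Kf (sg : Bool) (k : ℕ) (L : Vec 3) :
    prs (Kf sg k) L = (1 + (k : ℝ) ^ 2) * prs fH L + cond sg (prs (fC k) L) (-prs (fC k) L) := by
  cases sg <;> simp only [prs, Kf, cond_true, cond_false] <;> ring

theorem nf_tsub (a b : ℕ) : ((a - b : ℕ) : ℝ) = ((b - a : ℕ) : ℝ) + ((a : ℝ) - b) := by
  rcases le_total a b with h | h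
  · rw [Nat.sub_eq_zero_of_le h, Nat.cast_sub h]
    simp
  · rw [Nat.sub_eq_zero_of_le h, Nat.cast_sub h]
    simp

theorem nf_bv_nn {c : Cf} (hc : c.cL ≤ c.cS) {L : Vec 3} (hL : NN L) : NN (c.bv L) := by
  intro i
  have h1 : L i ≤ sS L := by
    have := le_mul_avg hL i
    rw [nf_avg] at this
    push_cast at this
    linarith
  have h2 : (c.cL : ℝ) ≤ c.cS := by exact_mod_cast hc
  exact sub_nonneg.2 (mul_le_mul h2 h1 (hL i) (Nat.cast_nonneg _))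

theorem nf_Pm {c : Cf} {t D : ℝ} (hc : c.Ok t D) (L : Vec 3) : Pm (-t) L = D⁻¹ • c.bv L := by
  funext i
  have h1 : (c.cS : ℝ) = (1 + t) * D / 3 := by linarith [hc.hS]
  have hD := hc.D_pos.ne'
  simp only [Pm, Cf.bv, Pi.smul_apply, smul_eq_mul, nf_avg, h1, hc.hL]
  field_simp
  ring

theorem nf_eq {c : Cf} {t D : ℝ} (hc : c.Ok t D) (p : LD × ℕ) {L : Vec 3} (hL : NN L) (hS : 0 < sS L) :
    (coefs c p).nf c L = c.M * (3 * p.1.toLane.F3 t ((p.2 : ℝ) / 20) L) := by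
  obtain ⟨l, n⟩ := p
  have hb := nf_bv_nn hc.le hL
  have hD := hc.D_pos
  have ht := hc.t_pos
  have hm : ∀ {s : Fin 3 → ℂ}, SAdm s → mS s (Pm (-t) L) = D⁻¹ * mS s (c.bv L) := fun hs => by
    rw [nf_Pm hc, hom_mS hs _ _ (inv_pos.2 hD) hb]
  have hM : (c.M : ℝ) = c.mT * t ^ 2 := hc.hT.symm
  have hmb : (c.mb : ℝ) = c.mT / D := by
    rw [eq_div_iff hD.ne']
    have h := hc.hb
    rw [hM] at h
    exact mul_right_cancel₀ (pow_pos ht 2).ne' (by linarith)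
  have hm3 : (c.m3 : ℝ) = 3 * (c.mT * t ^ 2) / 1280 := by
    have h : (c.m3 : ℝ) * 1280 = 3 * c.M := by exact_mod_cast hc.h3
    rw [← hM]
    linarith
  have hm2 : (c.m2 : ℝ) = c.mT * t ^ 2 / 1920 := by
    have h : (c.m2 : ℝ) * 1920 = c.M := by exact_mod_cast hc.h2
    rw [← hM]
    linarith
  have ekp : ((coefs c (l, n)).kp : ℝ) = (coefs c (l, n)).km + c.m3 * n *
      (27 * l.b0 + 36 * l.b1 + 72 * l.b2 + 180 * l.b3 + 360 * l.b4 + 612 * l.b5 + 64 * l.np - 64 * l.nm) := by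
    simp only [coefs]
    rw [Nat.cast_mul, nf_tsub, Nat.cast_mul (c.m3 * n)]
    push_cast
    ring
  have euH : ((coefs c (l, n)).uH : ℝ) = (coefs c (l, n)).wH + c.mb *
      (l.b1 - (2 * l.b2 + 5 * l.b3 + 10 * l.b4 + 17 * l.b5)) := by
    simp only [coefs]
    rw [Nat.cast_mul, nf_tsub, Nat.cast_mul c.mb]
    push_cast
    ring
  have ecP : ((coefs c (l, n)).cP : ℝ) = (coefs c (l, n)).cM +
      (c.M * (l.a0 + l.a1 + l.a2 + l.a3 + l.a4 + l.a5 + l.g) + c.mT * l.nm + c.m2 * n *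
        (27 * l.b0 + 36 * l.b1 + 72 * l.b2 + 180 * l.b3 + 360 * l.b4 + 612 * l.b5 + 64 * l.np) -
      (c.M * l.e + c.mT * (l.b0 + l.b1 + l.b2 + l.b3 + l.b4 + l.b5 + l.np) + c.m2 * n * (64 * l.nm) +
        2 * (coefs c (l, n)).kp + (coefs c (l, n)).km)) := by
    simp only [coefs]
    rw [nf_tsub]
    push_cast
    ring
  have e1 : ((coefs c (l, n)).uQ : ℝ) = c.mb * l.b0 := Nat.cast_mul _ _
  have e2 : ((coefs c (l, n)).u1 : ℝ) = c.mb * l.b2 := Nat.cast_mul _ _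
  have e3 : ((coefs c (l, n)).u2 : ℝ) = c.mb * l.b3 := Nat.cast_mul _ _
  have e4 : ((coefs c (l, n)).u3 : ℝ) = c.mb * l.b4 := Nat.cast_mul _ _
  have e5 : ((coefs c (l, n)).u4 : ℝ) = c.mb * l.b5 := Nat.cast_mul _ _
  have e6 : ((coefs c (l, n)).k1 : ℝ) = c.M * l.a2 := Nat.cast_mul _ _
  have e7 : ((coefs c (l, n)).k2 : ℝ) = c.M * l.a3 := Nat.cast_mul _ _
  have e8 : ((coefs c (l, n)).k3 : ℝ) = c.M * l.a4 := Nat.cast_mul _ _
  have e9 : ((coefs c (l, n)).k4 : ℝ) = c.M * l.a5 := Nat.cast_mul _ _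
  have e10 : ((coefs c (l, n)).eG : ℝ) = 3 * c.M * l.e := by simp [coefs]
  have e11 : ((coefs c (l, n)).nP : ℝ) = 3 * c.mb * l.np := by simp [coefs]
  have e12 : ((coefs c (l, n)).aQ : ℝ) = c.M * l.a0 := Nat.cast_mul _ _
  have e13 : ((coefs c (l, n)).aH : ℝ) =
      c.M * (l.a1 + 2 * l.a2 + 5 * l.a3 + 10 * l.a4 + 17 * l.a5) := by simp [coefs]
  have e14 : ((coefs c (l, n)).nM : ℝ) = c.mb * l.nm := Nat.cast_mul _ _
  unfold Co.nf Co.vP Co.vN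
  rw [ecP, ekp, euH, e1, e2, e3, e4, e5, e6, e7, e8, e9, e10, e11, e12, e13, e14]
  generalize ((coefs c (l, n)).km : ℝ) = km
  generalize ((coefs c (l, n)).wH : ℝ) = wH
  generalize ((coefs c (l, n)).cM : ℝ) = cM
  simp only [Lane.F3, Lane.F, Lane.A, Lane.B, Lane.b3, gJ, gG, gS, Fin.sum_univ_six, avg_Pm,
    hm (sAdm_sig _), hm sAdm_sG, nf_p3 hS, nf_mS_Q hL, nf_mS_H hL, nf_mS_1 hL, nf_mS_2 hL, nf_mS_3 hL,
    nf_mS_4 hL, nf_mS_Q hb, nf_mS_H hb, nf_mS_1 hb, nf_mS_2 hb, nf_mS_3 hb, nf_mS_4 hb, mS_sG_eq hL,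
    mS_sG_eq hb, nf_Kf, cond_true, cond_false]
  simp only [nf_avg, LD.toLane, cc3, gm, Matrix.cons_val, hM, hmb, hm3, hm2]
  push_cast
  field_simp
  ring

theorem Holds.splitX {t : ℝ} {ls : List (LD × ℕ)} {nD X0 X1 R0 R1 : ℕ} (X : ℕ)
    (h1 : Holds t ls nD X0 X R0 R1) (h2 : Holds t ls nD X X1 R0 R1) : Holds t ls nD X0 X1 R0 R1 := by
  intro x r a1 a2 a3 a4
  rcases le_total x (up X) with h | h
  · exact h1 x r a1 h a3 a4
  · exact h2 x r h a2 a3 a4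
theorem Holds.splitR {t : ℝ} {ls : List (LD × ℕ)} {nD X0 X1 R0 R1 : ℕ} (R : ℕ)
    (h1 : Holds t ls nD X0 X1 R0 R) (h2 : Holds t ls nD X0 X1 R R1) : Holds t ls nD X0 X1 R0 R1 := by
  intro x r a1 a2 a3 a4
  rcases le_total r (up R) with h | h
  · exact h1 x r a1 a2 a3 h
  · exact h2 x r a1 a2 h a4

theorem nf_gS {s : Fin 3 → ℂ} (hs : SAdm s) {c : ℝ} (hc : 0 < c) {L : Vec 3} (hL : NN L)
    (σ : Equiv.Perm (Fin 3)) : gS s (c • (L ∘ σ)) = c * gS s L := by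
  unfold gS
  rw [hom_mS hs c (L ∘ σ) hc fun i => hL _, mS_comp, avg_smul, avg_comp, mul_sub]

theorem nf_F3 (l : Lane) {t : ℝ} (h0 : 0 ≤ t) (h1 : t ≤ 1 / 2) (s : ℝ) {c : ℝ} (hc : 0 < c) {L : Vec 3}
    (hL : NN L) (σ : Equiv.Perm (Fin 3)) : l.F3 t s (c • (L ∘ σ)) = c * l.F3 t s L := by
  have hP := Pm_nonneg (adm3_neg h0 h1) hL
  simp only [Lane.F3, Lane.F, Lane.A, Lane.B, gJ, gG, Pm_smul, Pm_comp, nf_gS (sAdm_sig _) hc hL,
    nf_gS sAdm_sG hc hL, nf_gS (sAdm_sig _) hc hP, nf_gS sAdm_sG hc hP, avg_smul, avg_comp,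
    p3_smul hc.ne', p3_comp, Fin.sum_univ_six]
  ring

theorem nf_pq {L : Vec 3} (h0 : 0 < L 0) (h1 : L 1 ≤ L 0) (h2 : L 2 ≤ L 1) (h3 : 3 * L 0 ≤ 4 * L 2) :
    pq L ≤ 1 / 50 := by
  have hS : 0 < L 0 + L 1 + L 2 := by linarith
  have e : pq L = 3 * (L 0 ^ 2 + L 1 ^ 2 + L 2 ^ 2) / (L 0 + L 1 + L 2) ^ 2 - 1 := by
    unfold pq
    rw [nf_avg, nf_avg]
    simp only [sS]
    field_simp
    ring
  rw [e, sub_le_iff_le_add, div_le_iff₀ (by positivity)]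
  have hu := sub_nonneg.2 h3
  have hv := sub_nonneg.2 h2
  have hw := sub_nonneg.2 h1
  nlinarith [mul_nonneg hu hu, mul_nonneg hv hv, mul_nonneg hu hv, mul_nonneg hu hw, mul_nonneg hv hw]

theorem nf_up0 : up 0 = 0 := by norm_num [up, nN, Nat.shiftRight_eq_div_pow]
theorem nf_up1 : up 65536 = nN := by norm_num [up, nN, Nat.shiftRight_eq_div_pow]
theorem nf_n2 : (n2 : ℝ) = (nN : ℝ) ^ 2 := by norm_num [n2, nN]

theorem Holds.final {t : ℝ} (h0 : 0 ≤ t) (h1 : t ≤ 1 / 2) {ls : List (LD × ℕ)} {nD : ℕ}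
    (h : Holds t ls nD 0 65536 0 65536) (i : ℕ) (hi : i < ls.length) {L : Vec 3} (hL : NN L) :
    (i < nD ∧ pq L ≤ 1 / 50) ∨ 0 ≤ ls[i].1.toLane.F3 t ((ls[i].2 : ℝ) / 20) L := by
  obtain ⟨τ, hτ⟩ := srt_exists_anti L
  have a1 : L (τ 1) ≤ L (τ 0) := hτ (show (0 : Fin 3) ≤ 1 by decide)
  have a2 : L (τ 2) ≤ L (τ 1) := hτ (show (1 : Fin 3) ≤ 2 by decide)
  have b1 := hL (τ 1)
  have b2 := hL (τ 2)
  have hN : (0 : ℝ) < nN := by norm_num [nN]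
  rcases (hL (τ 0)).eq_or_lt with b0 | b0
  · right
    have e : (2 : ℝ) • (L ∘ τ) = (1 : ℝ) • (L ∘ τ) := by
      funext j
      fin_cases j
      · show 2 * L (τ 0) = 1 * L (τ 0)
        linarith
      · show 2 * L (τ 1) = 1 * L (τ 1)
        linarith
      · show 2 * L (τ 2) = 1 * L (τ 2)
        linarith
    have e1 := nf_F3 ls[i].1.toLane h0 h1 ((ls[i].2 : ℝ) / 20) two_pos hL τ
    rw [e, nf_F3 _ h0 h1 _ one_pos hL τ] at e1
    linarith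
  have exr : nN * (L (τ 1) / L (τ 0)) * (nN * (L (τ 2) / L (τ 1))) = n2 / L (τ 0) * L (τ 2) := by
    rw [nf_n2]
    rcases b1.eq_or_lt with c1 | c1
    · have c2 : L (τ 2) = 0 := by linarith
      rw [c2]
      simp
    · field_simp
  have e : vec (nN * (L (τ 1) / L (τ 0))) (nN * (L (τ 2) / L (τ 1))) = (n2 / L (τ 0)) • (L ∘ τ) := by
    funext j
    fin_cases j
    · show (n2 : ℝ) = n2 / L (τ 0) * L (τ 0)
      field_simp
    · show nN * (L (τ 1) / L (τ 0)) * nN = n2 / L (τ 0) * L (τ 1)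
      rw [nf_n2]
      field_simp
    · exact exr
  have hn2 : (0 : ℝ) < n2 / L (τ 0) := by
    rw [nf_n2]
    positivity
  unfold Holds at h
  rw [nf_up0, nf_up1] at h
  rcases h (nN * (L (τ 1) / L (τ 0))) (nN * (L (τ 2) / L (τ 1))) (by push_cast; positivity)
    (mul_le_of_le_one_right hN.le (div_le_one_of_le₀ a1 b0.le)) (by push_cast; positivity)
    (mul_le_of_le_one_right hN.le (div_le_one_of_le₀ a2 b1)) i hi with h' | h'
  · refine Or.inl ⟨h'.1, ?_⟩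
    rw [← pq_comp L τ]
    refine nf_pq b0 a1 a2 ?_
    have h2 := h'.2
    rw [exr] at h2
    have h3 : (n2 : ℝ) = n2 / L (τ 0) * L (τ 0) := by field_simp
    refine le_of_mul_le_mul_left ?_ hn2
    show n2 / L (τ 0) * (3 * L (τ 0)) ≤ n2 / L (τ 0) * (4 * L (τ 2))
    linarith
  · right
    rw [e, nf_F3 _ h0 h1 _ hn2 hL τ] at h'
    exact (mul_nonneg_iff_of_pos_left hn2).1 h'

/-- if the first `nD` lanes are fine near the uniform vector, all lanes pass -/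
theorem Holds.v3 {t : ℝ} (h0 : 0 ≤ t) (h1 : t ≤ 1 / 2) {ds ls : List (LD × ℕ)}
    (h : Holds t (ds ++ ls) ds.length 0 65536 0 65536)
    (hd : ∀ c ∈ ds, ∀ L : Vec 3, NN L → pq L ≤ 1 / 50 → 0 ≤ c.1.toLane.F3 t ((c.2 : ℝ) / 20) L) :
    ∀ c ∈ ds ++ ls, c.1.toLane.V3 t ((c.2 : ℝ) / 20) := by
  intro c hc L hL
  obtain ⟨i, hi, rfl⟩ := List.getElem_of_mem hc
  rcases h.final h0 h1 i hi hL with ⟨h2, h3⟩ | h2
  · refine hd _ ?_ L hL h3
    rw [List.getElem_append_left h2]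
    exact List.getElem_mem _
  · exact h2

end Crest.Agent.R163.E3
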