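import Crest.Agent.R163.E3.Fun

/-!
# R163/E3/Pack: packed lanes, chords, roots

`cmpL_sound`: from `A < 2^(96 (W+1) + 95)` the guard lane, hence every lane, is `< 2^95`; `A + HI - B` has the lanes `f i + 2^95 - g i ∈ (0, 2^96)`, and bit
`96 i + 95` is set iff `g i ≤ f i` (`Nat.testBit_land`, `Nat.testBit_eq_decide_div_mod_eq`, a digit lemma for `∑ d i 2^(96 i)` with `d i < 2^96`).
`chord_spec`: with `l2 ≤ x`, `(x - l2) m² + l2 (m+1)² ≤ y 2^20`; superadditivity, homogeneity and monotonicity of `Kf` (`good2_Kf`);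
`lookT T m < 2^768`, so its low and high halves are sums of four lanes each.
-/

set_option autoImplicit false

namespace Crest.Agent.R163.E3

open E2 Finset

/-- a packed number -/
def pkS (d : ℕ → ℕ) (n : ℕ) : ℕ := ∑ i ∈ range n, d i * 2 ^ (96 * i)

theorem pkS_succ (d : ℕ → ℕ) (n : ℕ) : pkS d (n + 1) = d 0 + 2 ^ 96 * pkS (fun i => d (i + 1)) n := by
  unfold pkS
  rw [sum_range_succ', mul_sum, add_comm, mul_zero, pow_zero, mul_one]
  refine congrArg (fun z => d 0 + z) (sum_congr rfl fun i _ => ?_)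
  rw [mul_add, mul_one, pow_add]
  generalize 2 ^ 96 = z
  ring

theorem lane_zero (A : ℕ) : lane A 0 = A % 2 ^ 96 := by
  simp [lane]

theorem lane_succ (A i : ℕ) : lane A (i + 1) = lane (A / 2 ^ 96) i := by
  unfold lane
  rw [Nat.div_div_eq_div_mul, ← pow_add, show 96 + 96 * i = 96 * (i + 1) by ring]

theorem lane_pkS {n : ℕ} {d : ℕ → ℕ} (hd : ∀ i < n, d i < 2 ^ 96) {j : ℕ} (hj : j < n) :
    lane (pkS d n) j = d j := by
  induction n generalizing d j with
  | zero => omega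
  | succ n ih =>
    have h0 := hd 0 (by omega)
    rw [pkS_succ]
    cases j with
    | zero => rw [lane_zero, Nat.add_mul_mod_self_left, Nat.mod_eq_of_lt h0]
    | succ j =>
      rw [lane_succ, Nat.add_mul_div_left _ _ (by positivity), Nat.div_eq_of_lt h0, zero_add]
      exact ih (fun i hi => hd (i + 1) (by omega)) (by omega)

theorem mod_eq_pkS (n A : ℕ) : A % 2 ^ (96 * n) = pkS (lane A) n := by
  induction n generalizing A with
  | zero => simp [pkS, Nat.mod_one]
  | succ n ih =>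
    rw [pkS_succ, lane_zero, show 96 * (n + 1) = 96 + 96 * n by ring, pow_add, Nat.mod_mul, ih]
    simp only [lane_succ]

theorem testBit_lane (A i : ℕ) : (lane A i).testBit 95 = A.testBit (96 * i + 95) := by
  unfold lane
  rw [Nat.testBit_mod_two_pow, Nat.testBit_div_two_pow, add_comm]
  simp

theorem hiM_eq (a b : ℕ) : hiM a b = pkS (fun i => if a ≤ i then 2 ^ 95 else 0) b := by
  have h1 : ∀ k : ℕ, (Nat.rec 0 (fun _ ih => Nat.add p95 (Nat.shiftLeft ih 96)) k : ℕ) =
      pkS (fun _ => 2 ^ 95) k := fun k => by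
    induction k with
    | zero => rfl
    | succ k ih =>
      rw [pkS_succ, ← ih]
      change p95 + _ <<< 96 = _
      rw [Nat.shiftLeft_eq, mul_comm]
      rfl
  unfold hiM
  rw [h1]
  change _ <<< (96 * a) = _
  rw [Nat.shiftLeft_eq]
  unfold pkS
  simp only [ite_mul, zero_mul]
  rw [← sum_filter, show (range b).filter (fun i => a ≤ i) = Ico a b by ext i; simp [and_comm],
    sum_Ico_eq_sum_range, sum_mul]
  exact sum_congr rfl fun i _ => by ring

theorem le_maxL (f : Co → ℕ) (cs : List Co) : ∀ c ∈ cs, f c ≤ maxL f cs := by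
  induction cs with
  | nil => simp
  | cons c cs ih =>
    have h : maxL f (c :: cs) = max (f c) (maxL f cs) := by
      change force (f c) (fun a => force (maxL f cs) fun b => (Bool.rec a b (Nat.ble a b) : ℕ)) = _
      rw [force_eq, force_eq]
      cases h : Nat.ble (f c) (maxL f cs)
      · exact (max_eq_left (Nat.not_le.1 (Nat.not_le_of_not_ble_eq_true (by simp [h]))).le).symm
      · exact (max_eq_right (Nat.le_of_ble_eq_true h)).symm
    intro c' hc'
    rw [h]
    rcases List.mem_cons.1 hc' with rfl | hc'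
    · exact le_max_left _ _
    · exact (ih c' hc').trans (le_max_right _ _)

theorem minN_le_left (a b : ℕ) : minN a b ≤ a := by
  unfold minN
  cases h : Nat.ble a b
  · exact (Nat.not_le.1 (Nat.not_le_of_not_ble_eq_true (by simp [h]))).le
  · exact le_rfl

theorem minN_le_right (a b : ℕ) : minN a b ≤ b := by
  unfold minN
  cases h : Nat.ble a b
  · exact le_rfl
  · exact Nat.le_of_ble_eq_true h

theorem lookT_lt (T : Tb) (m : ℕ) : lookT T m < 2 ^ (96 * 8) := by
  induction T generalizing m with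
  | lf c =>
    change (c >>> (384 * m)) &&& m768 < _
    exact lt_of_le_of_lt Nat.and_le_right (by decide +kernel)
  | nd h l r il ir =>
    change (Bool.rec (lookT l m) (lookT r (m - h)) (Nat.ble h m) : ℕ) < _
    cases Nat.ble h m
    · exact il m
    · exact ir _

theorem land_m384 (E : ℕ) : Nat.land E m384 = pkS (lane E) 4 := by
  have h : m384 = 2 ^ (96 * 4) - 1 := by decide +kernel
  rw [h, Nat.land_eq, Nat.and_two_pow_sub_one_eq_mod, mod_eq_pkS]

theorem shiftRight_384 {E : ℕ} (hE : E < 2 ^ (96 * 8)) :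
    Nat.shiftRight E 384 = pkS (fun k => lane E (4 + k)) 4 := by
  have h0 : ∀ a : ℕ, E < 2 ^ (a + a) → Nat.shiftRight E a = E / 2 ^ a % 2 ^ a := fun a h => by
    rw [Nat.shiftRight_eq, Nat.shiftRight_eq_div_pow, Nat.mod_eq_of_lt]
    rw [Nat.div_lt_iff_lt_mul (Nat.two_pow_pos a), ← pow_add]
    exact h
  refine (h0 (96 * 4) hE).trans ?_
  rw [mod_eq_pkS]
  refine congrArg (fun d => pkS d 4) (funext fun k => ?_)
  unfold lane
  rw [Nat.div_div_eq_div_mul, ← pow_add, mul_add]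

theorem chord_real {f : ℝ → ℝ → ℝ} (g : Good2 f) {e0 e1 m l u y : ℕ}
    (a2 : (e0 : ℝ) ≤ 2 ^ 36 * f 1 (((m : ℝ) / 1024) ^ 2))
    (b2 : (e1 : ℝ) ≤ 2 ^ 36 * f 1 ((((m + 1 : ℕ) : ℝ) / 1024) ^ 2))
    (h1 : (l + u) * (m * m) + l * (m + m + 1) ≤ y * 2 ^ 20) :
    ((u * e0 + l * e1 : ℕ) : ℝ) ≤ 2 ^ 36 * f ((l + u : ℕ) : ℝ) y := by
  have hu : (0 : ℝ) ≤ u := Nat.cast_nonneg u
  have hl : (0 : ℝ) ≤ l := Nat.cast_nonneg l
  have s1 := g.smul u 1 (((m : ℝ) / 1024) ^ 2) hu zero_le_one (sq_nonneg _)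
  have s2 := g.smul l 1 ((((m + 1 : ℕ) : ℝ) / 1024) ^ 2) hl zero_le_one (sq_nonneg _)
  have s3 := g.add (u * 1) (u * ((m : ℝ) / 1024) ^ 2) (l * 1) (l * (((m + 1 : ℕ) : ℝ) / 1024) ^ 2)
    (by positivity) (by positivity) (by positivity) (by positivity)
  have h2 : ((l : ℝ) + u) * (m * m) + l * (m + m + 1) ≤ y * 2 ^ 20 := by exact_mod_cast h1
  have s4 := g.mono (x := u * 1 + l * 1) (x' := ((l + u : ℕ) : ℝ))
    (y := u * ((m : ℝ) / 1024) ^ 2 + l * (((m + 1 : ℕ) : ℝ) / 1024) ^ 2) (y' := y)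
    (by positivity) (by positivity) (by push_cast; linarith) (by push_cast; nlinarith)
  have t1 := mul_le_mul_of_nonneg_left a2 hu
  have t2 := mul_le_mul_of_nonneg_left b2 hl
  rw [Nat.cast_add, Nat.cast_mul, Nat.cast_mul]
  nlinarith

/-- the body of `chord` -/
noncomputable def chB (T : Tb) (x m xm z : ℕ) : ℕ :=
  Bool.rec 0
    (force (minN (Nat.div (Nat.sub z xm) (Nat.succ (Nat.add m m))) x) fun l2 =>
      force (lookT T m) fun E =>
      Nat.add (Nat.mul (Nat.sub x l2) (Nat.land E m384)) (Nat.mul l2 (Nat.shiftRight E 384)))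
    (Nat.ble xm z)

theorem chord_eq0 (T : Tb) (x y sx sy : ℕ) : chord T x y sx sy =
    force (minN (Nat.div (Nat.mul sy 1099511626752) (Nat.shiftLeft sx 30)) 1023) fun m =>
      force (Nat.mul x (Nat.mul m m)) fun xm => force (Nat.shiftLeft y 20) fun z => chB T x m xm z := rfl

theorem chord_eq (T : Tb) (x y sx sy : ℕ) : ∃ m < 1024, chord T x y sx sy = chB T x m (x * (m * m)) (y * 2 ^ 20) := by
  rw [chord_eq0, force_eq]
  have hm : minN (Nat.div (Nat.mul sy 1099511626752) (Nat.shiftLeft sx 30)) 1023 < 1024 :=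
    Nat.lt_succ_of_le (minN_le_right _ _)
  generalize minN (Nat.div (Nat.mul sy 1099511626752) (Nat.shiftLeft sx 30)) 1023 = m at hm
  refine ⟨m, hm, ?_⟩
  rw [force_eq, force_eq, Nat.mul_eq, Nat.mul_eq, Nat.shiftLeft_eq', Nat.shiftLeft_eq]

theorem chB_false (T : Tb) {x m xm z : ℕ} (h : z < xm) : chB T x m xm z = 0 := by
  unfold chB
  have : Nat.ble xm z = false := by
    cases hb : Nat.ble xm z
    · rfl
    · exact absurd (Nat.le_of_ble_eq_true hb) (by omega)
  rw [this]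

theorem chB_true (T : Tb) {x m xm z : ℕ} (h : xm ≤ z) : ∃ l ≤ x, l * (m + m + 1) ≤ z - xm ∧
    chB T x m xm z = (x - l) * pkS (lane (lookT T m)) 4 + l * pkS (fun k => lane (lookT T m) (4 + k)) 4 := by
  refine ⟨minN (Nat.div (Nat.sub z xm) (Nat.succ (Nat.add m m))) x, minN_le_right _ _, ?_, ?_⟩
  · rw [← Nat.le_div_iff_mul_le (by omega)]
    exact minN_le_left _ _
  · unfold chB
    rw [Nat.ble_eq_true_of_le h, force_eq, force_eq, land_m384, shiftRight_384 (lookT_lt T m)]
    rfl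

/-- `A` has the lanes `f 0, …, f (W+1)`, the last one being the largest -/
structure IsP (W A : ℕ) (f : ℕ → ℕ) : Prop where
  eq : A = ∑ i ∈ range (W + 2), f i * 2 ^ (96 * i)
  le : ∀ i < W + 2, f i ≤ f (W + 1)

theorem IsP.add {W A B : ℕ} {f g : ℕ → ℕ} (h : IsP W A f) (h' : IsP W B g) :
    IsP W (Nat.add A B) fun i => f i + g i := by
  refine ⟨?_, fun i hi => Nat.add_le_add (h.le i hi) (h'.le i hi)⟩
  change A + B = _
  rw [h.eq, h'.eq, ← sum_add_distrib]
  exact sum_congr rfl fun i _ => by ring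
theorem IsP.mul {W A : ℕ} {f : ℕ → ℕ} (h : IsP W A f) (x : ℕ) : IsP W (Nat.mul A x) fun i => f i * x := by
  refine ⟨?_, fun i hi => Nat.mul_le_mul_right x (h.le i hi)⟩
  change A * x = _
  rw [h.eq, sum_mul]
  exact sum_congr rfl fun i _ => by ring

/-- the lanes of `pack f cs` -/
noncomputable def pkf (f : Co → ℕ) (cs : List Co) (i : ℕ) : ℕ :=
  if h : 1 ≤ i ∧ i - 1 < cs.length then f (cs[i - 1]'h.2) else topL f cs
theorem pkf_succ (f : Co → ℕ) (cs : List Co) {i : ℕ} (hi : i < cs.length) : pkf f cs (i + 1) = f cs[i] := by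
  unfold pkf
  rw [dif_pos ⟨by omega, by simpa using hi⟩]
  simp
theorem isP_pack (f : Co → ℕ) (cs : List Co) : IsP cs.length (pack f cs) (pkf f cs) := by
  have h1 : ∀ (top : ℕ) (l : List Co),
      (List.rec top (fun c _ ih => Nat.add (f c) (Nat.shiftLeft ih 96)) l : ℕ) =
        pkS (fun i => if h : i < l.length then f l[i] else top) (l.length + 1) := fun top l => by
    induction l with
    | nil => simp [pkS]
    | cons c l ih =>
      rw [show (c :: l).length + 1 = l.length + 1 + 1 from rfl, pkS_succ]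
      change f c + _ <<< 96 = _
      rw [ih, Nat.shiftLeft_eq, mul_comm]
      simp
  have h0 : pkf f cs 0 = topL f cs := by
    unfold pkf
    rw [dif_neg (by omega)]
  constructor
  · unfold pack
    rw [force_eq, h1]
    change _ + _ <<< 96 = pkS (pkf f cs) (cs.length + 1 + 1)
    rw [pkS_succ (pkf f cs), h0, Nat.shiftLeft_eq, mul_comm]
    congr 3
    funext i
    simp [pkf]
  · intro i _
    have h2 : pkf f cs (cs.length + 1) = topL f cs := by
      unfold pkf
      rw [dif_neg (by omega)]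
    rw [h2]
    unfold pkf
    split_ifs with h
    · exact (le_maxL f cs _ (List.getElem_mem _)).trans (Nat.le_add_right _ _)
    · exact le_rfl

theorem cmpL_sound {W A B a : ℕ} {f g : ℕ → ℕ} (hA : IsP W A f) (hB : IsP W B g)
    (h : cmpL (hiM 0 (W + 2)) (Nat.pow 2 (96 * (W + 1) + 95)) (hiM a (W + 1)) A B = true) :
    ∀ i, a ≤ i → i ≤ W → g i ≤ f i := by
  intro i hai hiW
  unfold cmpL at h
  simp only [Bool.and_eq_true, Nat.blt_eq, Nat.beq_eq] at h
  obtain ⟨⟨h1, h2⟩, h3⟩ := h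
  have top : ∀ {A : ℕ} {f : ℕ → ℕ}, IsP W A f → A < Nat.pow 2 (96 * (W + 1) + 95) →
      ∀ j < W + 2, f j < 2 ^ 95 := fun {A f} hA h j hj => by
    have h4 : f (W + 1) * 2 ^ (96 * (W + 1)) ≤ A := by
      rw [hA.eq]
      exact single_le_sum (f := fun i => f i * 2 ^ (96 * i)) (fun _ _ => Nat.zero_le _)
        (mem_range.2 (by omega))
    have h5 : f (W + 1) * 2 ^ (96 * (W + 1)) < 2 ^ 95 * 2 ^ (96 * (W + 1)) := by
      rw [← pow_add, add_comm 95]
      exact lt_of_le_of_lt h4 h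
    exact lt_of_le_of_lt (hA.le j hj) (Nat.lt_of_mul_lt_mul_right h5)
  have hf := top hA h1
  have hg := top hB h2
  have e1 : Nat.sub (Nat.add A (hiM 0 (W + 2))) B = pkS (fun i => f i + 2 ^ 95 - g i) (W + 2) := by
    change A + hiM 0 (W + 2) - B = _
    refine Nat.sub_eq_of_eq_add ?_
    rw [hiM_eq, hA.eq, hB.eq]
    unfold pkS
    rw [← sum_add_distrib, ← sum_add_distrib]
    refine sum_congr rfl fun j hj => ?_
    have := hg j (mem_range.1 hj)
    beta_reduce
    rw [if_pos (Nat.zero_le j), ← add_mul, ← add_mul, Nat.sub_add_cancel (by omega)]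
  rw [e1] at h3
  have h4 : (hiM a (W + 1)).testBit (96 * i + 95) = true := by
    rw [← testBit_lane, hiM_eq, lane_pkS (fun j _ => by split_ifs <;> norm_num) (by omega), if_pos hai]
    exact Nat.testBit_two_pow_self
  have h5 := h4
  rw [← h3] at h5
  change (_ &&& _ : ℕ).testBit _ = true at h5
  rw [Nat.testBit_and, h4, Bool.and_true, ← testBit_lane,
    lane_pkS (fun j hj => by have := hf j hj; omega) (by omega)] at h5
  have h6 := Nat.ge_two_pow_of_testBit h5
  have h7 := hg i (by omega)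
  omega

theorem chord_spec {sg : Bool} {T : Tb} (hT : TabOK sg T) {x y : ℕ} (hx : x < 2 ^ 48) (sx sy : ℕ) :
    ∃ c : ℕ → ℕ, chord T x y sx sy = ∑ k ∈ range 4, c k * 2 ^ (96 * k) ∧
      ∀ k < 4, c k < 2 ^ 92 ∧ (c k : ℝ) ≤ 2 ^ 36 * Kf sg (k + 1) x y := by
  have hK := fun k => good2_Kf sg k
  obtain ⟨m, hm, e⟩ := chord_eq T x y sx sy
  rw [e]
  rcases lt_or_ge (y * 2 ^ 20) (x * (m * m)) with hb | hb
  · refine ⟨fun _ => 0, by rw [chB_false T hb]; simp, fun k _ => ⟨by positivity, ?_⟩⟩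
    have := (hK (k + 1)).nonneg x y (Nat.cast_nonneg x) (Nat.cast_nonneg y)
    push_cast
    positivity
  obtain ⟨l, l2, l1, e⟩ := chB_true T (x := x) (m := m) hb
  rw [e]
  obtain ⟨u, rfl⟩ := Nat.exists_eq_add_of_le l2
  have hT' := hT m hm
  refine ⟨fun k => u * lane (lookT T m) k + l * lane (lookT T m) (4 + k), ?_, fun k hk => ?_⟩
  · rw [Nat.add_sub_cancel_left]
    unfold pkS
    rw [mul_sum, mul_sum, ← sum_add_distrib]
    exact sum_congr rfl fun i _ => by ring
  · obtain ⟨a1, a2⟩ := hT' 0 (by omega) k hk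
    obtain ⟨b1, b2⟩ := hT' 1 (by omega) k hk
    simp only [mul_zero, zero_add, add_zero, mul_one] at a1 a2 b1 b2
    beta_reduce
    generalize lane (lookT T m) k = e0 at a1 a2
    generalize lane (lookT T m) (4 + k) = e1 at b1 b2
    constructor
    · have h1 : u * e0 ≤ u * 2 ^ 44 := Nat.mul_le_mul_left u a1.le
      have h2 : l * e1 ≤ l * 2 ^ 44 := Nat.mul_le_mul_left l b1.le
      omega
    · have h1 : (l + u) * (m * m) + l * (m + m + 1) ≤ y * 2 ^ 20 := by omega
      exact chord_real (hK (k + 1)) a2 b2 h1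

theorem clamp_lt (x : ℕ) : clamp x < 2 ^ 48 := by
  change (x >>> 104) &&& 281474976710655 < _
  exact lt_of_le_of_lt Nat.and_le_right (by norm_num)
theorem clamp_le (x : ℕ) : (clamp x : ℝ) * 2 ^ 104 ≤ x := by
  have h1 : clamp x ≤ x / 2 ^ 104 := by
    change (x >>> 104) &&& 281474976710655 ≤ _
    rw [← Nat.shiftRight_eq_div_pow]
    exact Nat.and_le_left
  have h2 : clamp x * 2 ^ 104 ≤ x := (Nat.le_div_iff_mul_le (by positivity)).1 h1
  exact_mod_cast h2

/-- three chords: lower bounds for `prs (Kf sg (k+1))` in units of `2^112` (use `Good2.symm` for the order of the arguments) -/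
theorem unp_chords {sg : Bool} {T : Tb} (hT : TabOK sg T) (x0 y0 x1 y1 x2 y2 s0 t0 s1 t1 s2 t2 : ℕ) {k : ℕ}
    (hk : k < 4) :
    (unp (Nat.add (Nat.add (chord T (clamp x0) (clamp y0) s0 t0) (chord T (clamp x1) (clamp y1) s1 t1))
      (chord T (clamp x2) (clamp y2) s2 t2)) (96 * k + 44) : ℝ) * 2 ^ 112 ≤
      Kf sg (k + 1) x0 y0 + Kf sg (k + 1) x1 y1 + Kf sg (k + 1) x2 y2 := by
  obtain ⟨c0, e0, h0⟩ := chord_spec hT (y := clamp y0) (clamp_lt x0) s0 t0
  obtain ⟨c1, e1, h1⟩ := chord_spec hT (y := clamp y1) (clamp_lt x1) s1 t1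
  obtain ⟨c2, e2, h2⟩ := chord_spec hT (y := clamp y2) (clamp_lt x2) s2 t2
  have e : Nat.add (Nat.add (chord T (clamp x0) (clamp y0) s0 t0) (chord T (clamp x1) (clamp y1) s1 t1))
      (chord T (clamp x2) (clamp y2) s2 t2) = pkS (fun i => c0 i + c1 i + c2 i) 4 := by
    rw [e0, e1, e2, Nat.add_eq, Nat.add_eq]
    unfold pkS
    rw [← sum_add_distrib, ← sum_add_distrib]
    exact sum_congr rfl fun i _ => by ring
  have hu : ∀ A : ℕ, unp A (96 * k + 44) * 2 ^ 44 ≤ lane A k := fun A => by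
    have : unp A (96 * k + 44) = lane A k / 2 ^ 44 := by
      change (A >>> (96 * k + 44)) &&& 4503599627370495 = _
      rw [show 4503599627370495 = 2 ^ 52 - 1 by norm_num, Nat.and_two_pow_sub_one_eq_mod,
        Nat.shiftRight_eq_div_pow, lane, show 2 ^ 96 = 2 ^ 44 * 2 ^ 52 by norm_num,
        Nat.mod_mul_right_div_self, Nat.div_div_eq_div_mul, ← pow_add]
    rw [this]
    exact Nat.div_mul_le_self _ _
  have h3 := hu (pkS (fun i => c0 i + c1 i + c2 i) 4)
  rw [lane_pkS (fun i hi => by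
    have := (h0 i hi).1
    have := (h1 i hi).1
    have := (h2 i hi).1
    omega) hk] at h3
  rw [e]
  have h4 : (unp (pkS (fun i => c0 i + c1 i + c2 i) 4) (96 * k + 44) : ℝ) * 2 ^ 44 ≤ c0 k + c1 k + c2 k := by
    exact_mod_cast h3
  have g := good2_Kf sg (k + 1)
  have h5 : ∀ x y : ℕ, 2 ^ 104 * Kf sg (k + 1) (clamp x) (clamp y) ≤ Kf sg (k + 1) x y := fun x y => by
    rw [← g.smul _ _ _ (by positivity) (Nat.cast_nonneg _) (Nat.cast_nonneg _)]
    exact g.mono (by positivity) (by positivity) (by rw [mul_comm]; exact clamp_le x)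
      (by rw [mul_comm]; exact clamp_le y)
  have a0 := (h0 k hk).2
  have a1 := (h1 k hk).2
  have a2 := (h2 k hk).2
  have b0 := h5 x0 y0
  have b1 := h5 x1 y1
  have b2 := h5 x2 y2
  linarith

theorem chkR_pow (k b q : ℕ) (hk : 0 < k) : chkR k b q ^ k ≤ b := by
  unfold chkR
  cases h : Nat.ble (Nat.pow q k) b
  · change 0 ^ k ≤ b
    rw [zero_pow hk.ne']
    exact Nat.zero_le b
  · exact Nat.le_of_ble_eq_true h
theorem root4_pow (b g : ℕ) : root4 b g ^ 4 ≤ b := by
  unfold root4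
  rw [force_eq, force_eq]
  exact chkR_pow 4 b _ (by norm_num)
theorem root3_pow (b g : ℕ) : root3 b g ^ 3 ≤ b := by
  unfold root3
  rw [force_eq, force_eq]
  exact chkR_pow 3 b _ (by norm_num)

end Crest.Agent.R163.E3
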