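import Crest.Agent.R163.E3.Vert
import Crest.Agent.R163.E3.NF

/-!
# R163/E3/Sound: leaves, the recursion, the checker

`mkT_spec`: `fQ_le`, `fH_le` on each pair (with `a0 a1 a2 > 0`), `gm_le` (`G0 G1 G2 ≥ 2^120`), `cC1_tan`, `cC2_tan` with `λ = l / 2^40`; here `l0 + l1 + l2 ≤ 2^40`
(floors), hence the truncated subtractions are exact.  `vchk_sound`: `cmpL_sound` + `VOk`.  `leaf_sound`: `cell_nf`, `nf_eq`; if the mask is `mL` then
`3 n2 ≤ 4 x0 r0 ≤ 4 x r`.  `run_sound`: induction on the tree, `le_total`.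
-/

set_option autoImplicit false

namespace Crest.Agent.R163.E3

open E2 Finset

noncomputable def v3 (a b c : ℕ) (s : ℕ) : Vec 3 := ![(a : ℝ) / 2 ^ s, (b : ℝ) / 2 ^ s, (c : ℝ) / 2 ^ s]

def TgOk (t : Tg) : Prop :=
  TanOk (v3 t.Q0 t.Q1 t.Q2 40) (v3 t.H0 t.H1 t.H2 40) (v3 t.B0 t.B1 t.B2 40) (v3 t.G0 t.G1 t.G2 40)
    (v3 t.C0 t.C1 t.C2 120) (v3 t.D0 t.D1 t.D2 80)

theorem sound_div_le (a b : ℕ) (hb : 0 < b) : (a : ℝ) / b ≤ ((Nat.succ (Nat.div a b) : ℕ) : ℝ) := by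
  have h : a < b * (a / b + 1) := Nat.lt_mul_div_succ a hb
  have hb' : (0 : ℝ) < b := Nat.cast_pos.2 hb
  rw [div_le_iff₀ hb']
  have h2 : ((a : ℕ) : ℝ) ≤ ((b * (a / b + 1) : ℕ) : ℝ) := Nat.cast_le.2 h.le
  have e : Nat.succ (Nat.div a b) = a / b + 1 := rfl
  rw [e]
  push_cast at h2 ⊢
  linarith

theorem sound_shl (a s : ℕ) : Nat.shiftLeft a s = a * 2 ^ s := Nat.shiftLeft_eq a s
theorem sound_shr (a s : ℕ) : Nat.shiftRight a s = a / 2 ^ s := Nat.shiftRight_eq_div_pow a s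

theorem sound_tH {si : ℕ} (sk sl : ℕ) (h : 0 < si) :
    ((sk : ℝ) / si + (sl : ℝ) / si) / 2 ≤ (tH si sk sl : ℝ) / 2 ^ 40 := by
  have h1 := sound_div_le (Nat.shiftLeft (Nat.add sk sl) 39) si h
  have hs : (0 : ℝ) < si := Nat.cast_pos.2 h
  unfold tH
  rw [le_div_iff₀ (by positivity)]
  refine le_trans (le_of_eq ?_) h1
  rw [sound_shl, Nat.add_eq]
  push_cast
  field_simp
  ring

theorem sound_tQ {ai : ℕ} (ak al : ℕ) (h : 0 < ai) :
    (((ak : ℝ) ^ 3 + 3 * ak * (ai : ℝ) ^ 2) / (ai : ℝ) ^ 3 +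
      ((al : ℝ) ^ 3 + 3 * al * (ai : ℝ) ^ 2) / (ai : ℝ) ^ 3) / 8 ≤
      (tQ (Nat.mul ai ai) (Nat.mul ai (Nat.mul ai ai)) ak al (Nat.mul ak (Nat.mul ak ak))
        (Nat.mul al (Nat.mul al al)) : ℝ) / 2 ^ 40 := by
  have hc : 0 < Nat.mul ai (Nat.mul ai ai) := Nat.mul_pos h (Nat.mul_pos h h)
  have h1 := sound_div_le (Nat.shiftLeft (Nat.add (Nat.add (Nat.mul ak (Nat.mul ak ak))
    (Nat.mul al (Nat.mul al al))) (Nat.mul (Nat.mul 3 (Nat.add ak al)) (Nat.mul ai ai))) 37) _ hc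
  have hs : (0 : ℝ) < ai := Nat.cast_pos.2 h
  unfold tQ
  rw [le_div_iff₀ (by positivity)]
  refine le_trans (le_of_eq ?_) h1
  simp only [sound_shl, Nat.add_eq, Nat.mul_eq]
  push_cast
  field_simp
  ring

theorem sound_H {s0 s1 s2 : ℕ} (h0 : 0 < s0) (h1 : 0 < s1) (h2 : 0 < s2) (L : Vec 3) (hL : NN L) :
    prs fH L ≤ dot (v3 (tH s0 s1 s2) (tH s1 s0 s2) (tH s2 s0 s1) 40) L := by
  have p0 : (0 : ℝ) < s0 := Nat.cast_pos.2 h0
  have p1 : (0 : ℝ) < s1 := Nat.cast_pos.2 h1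
  have p2 : (0 : ℝ) < s2 := Nat.cast_pos.2 h2
  have a01 := fH_le p0 p1 (hL 0) (hL 1)
  have a02 := fH_le p0 p2 (hL 0) (hL 2)
  have a12 := fH_le p1 p2 (hL 1) (hL 2)
  have b0 := mul_le_mul_of_nonneg_right (sound_tH s1 s2 h0) (hL 0)
  have b1 := mul_le_mul_of_nonneg_right (sound_tH s0 s2 h1) (hL 1)
  have b2 := mul_le_mul_of_nonneg_right (sound_tH s0 s1 h2) (hL 2)
  simp only [prs, dot, v3, Matrix.cons_val_zero, Matrix.cons_val_one, Matrix.cons_val_two,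
    Matrix.head_cons, Matrix.tail_cons]
  linarith

theorem sound_Q {a0 a1 a2 : ℕ} (h0 : 0 < a0) (h1 : 0 < a1) (h2 : 0 < a2) (L : Vec 3) (hL : NN L) :
    prs fQ L ≤ dot (v3
      (tQ (Nat.mul a0 a0) (Nat.mul a0 (Nat.mul a0 a0)) a1 a2 (Nat.mul a1 (Nat.mul a1 a1))
        (Nat.mul a2 (Nat.mul a2 a2)))
      (tQ (Nat.mul a1 a1) (Nat.mul a1 (Nat.mul a1 a1)) a0 a2 (Nat.mul a0 (Nat.mul a0 a0))
        (Nat.mul a2 (Nat.mul a2 a2)))
      (tQ (Nat.mul a2 a2) (Nat.mul a2 (Nat.mul a2 a2)) a0 a1 (Nat.mul a0 (Nat.mul a0 a0))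
        (Nat.mul a1 (Nat.mul a1 a1))) 40) L := by
  have p0 : (0 : ℝ) < a0 := Nat.cast_pos.2 h0
  have p1 : (0 : ℝ) < a1 := Nat.cast_pos.2 h1
  have p2 : (0 : ℝ) < a2 := Nat.cast_pos.2 h2
  have a01 := fQ_le p0 p1 (hL 0) (hL 1)
  have a02 := fQ_le p0 p2 (hL 0) (hL 2)
  have a12 := fQ_le p1 p2 (hL 1) (hL 2)
  have b0 := mul_le_mul_of_nonneg_right (sound_tQ a1 a2 h0) (hL 0)
  have b1 := mul_le_mul_of_nonneg_right (sound_tQ a0 a2 h1) (hL 1)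
  have b2 := mul_le_mul_of_nonneg_right (sound_tQ a0 a1 h2) (hL 2)
  simp only [prs, dot, v3, Matrix.cons_val_zero, Matrix.cons_val_one, Matrix.cons_val_two,
    Matrix.head_cons, Matrix.tail_cons]
  linarith

theorem sound_p120 : p120 = 2 ^ 120 := by unfold p120; norm_num

theorem sound_G {G0 G1 : ℕ} (h0 : 0 < G0) (h1 : 0 < G1) (L : Vec 3) (hL : NN L) :
    3 * gm L ≤ dot (v3 G0 G1 (Nat.succ (Nat.div p120 (Nat.mul G0 G1))) 40) L := by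
  have hc : 0 < Nat.mul G0 G1 := Nat.mul_pos h0 h1
  have h2 := sound_div_le p120 _ hc
  generalize Nat.succ (Nat.div p120 (Nat.mul G0 G1)) = G2 at h2 ⊢
  have p0 : (0 : ℝ) < G0 := Nat.cast_pos.2 h0
  have p1 : (0 : ℝ) < G1 := Nat.cast_pos.2 h1
  rw [sound_p120, Nat.mul_eq] at h2
  push_cast at h2
  rw [div_le_iff₀ (by positivity)] at h2
  have key : (1 : ℝ) ≤ (G0 : ℝ) / 2 ^ 40 * ((G1 : ℝ) / 2 ^ 40) * ((G2 : ℝ) / 2 ^ 40) := by
    have e : (G0 : ℝ) / 2 ^ 40 * ((G1 : ℝ) / 2 ^ 40) * ((G2 : ℝ) / 2 ^ 40) =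
        (G2 : ℝ) * ((G0 : ℝ) * G1) / 2 ^ 120 := by
      field_simp
    rw [e, le_div_iff₀ (by positivity)]
    linarith
  have := gm_le (by positivity) (by positivity) (by positivity) key hL
  simpa only [dot, v3, Matrix.cons_val_zero, Matrix.cons_val_one, Matrix.cons_val_two,
    Matrix.head_cons, Matrix.tail_cons] using this

theorem sound_C {l0 l1 l2 : ℕ} (hl : l0 + l1 + l2 ≤ 2 ^ 40) {z : ℕ}
    (hz : z = Nat.mul 2 (Nat.sub p120 (Nat.add (Nat.add (Nat.mul l0 (Nat.mul l0 l0))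
      (Nat.mul l1 (Nat.mul l1 l1))) (Nat.mul l2 (Nat.mul l2 l2))))) (L : Vec 3) (hL : NN L)
    (hS : 0 < sS L) :
    dot (v3 (Nat.add (Nat.mul 3298534883328 (Nat.mul l0 l0)) z)
      (Nat.add (Nat.mul 3298534883328 (Nat.mul l1 l1)) z)
      (Nat.add (Nat.mul 3298534883328 (Nat.mul l2 l2)) z) 120) L ≤ cC1 L + 2 * sS L := by
  have h3 : l0 * (l0 * l0) + l1 * (l1 * l1) + l2 * (l2 * l2) ≤ 2 ^ 120 := by
    have h4 : (l0 + l1 + l2) ^ 3 ≤ (2 ^ 40) ^ 3 := Nat.pow_le_pow_left hl 3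
    have h5 : l0 * (l0 * l0) + l1 * (l1 * l1) + l2 * (l2 * l2) ≤ (l0 + l1 + l2) ^ 3 := by
      have e : (l0 + l1 + l2) ^ 3 = l0 * (l0 * l0) + l1 * (l1 * l1) + l2 * (l2 * l2) +
          (3 * (l0 * l0 * l1 + l0 * l0 * l2 + l1 * l1 * l0 + l1 * l1 * l2 + l2 * l2 * l0 + l2 * l2 * l1) +
            6 * l0 * l1 * l2) := by ring
      rw [e]
      exact Nat.le_add_right _ _
    calc _ ≤ _ := h5
      _ ≤ _ := h4
      _ = _ := by norm_num
  have hz' : (z : ℝ) = 2 * (2 ^ 120 - ((l0 : ℝ) ^ 3 + (l1 : ℝ) ^ 3 + (l2 : ℝ) ^ 3)) := by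
    rw [hz, sound_p120]
    simp only [Nat.add_eq, Nat.mul_eq, Nat.sub_eq]
    rw [Nat.cast_mul, Nat.cast_sub h3]
    push_cast
    ring
  have h := cC1_tan (l0 := (l0 : ℝ) / 2 ^ 40) (l1 := (l1 : ℝ) / 2 ^ 40) (l2 := (l2 : ℝ) / 2 ^ 40)
    (by positivity) (by positivity) (by positivity) hL hS
  simp only [dot, v3, Matrix.cons_val_zero, Matrix.cons_val_one, Matrix.cons_val_two,
    Matrix.head_cons, Matrix.tail_cons, Nat.add_eq, Nat.mul_eq]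
  push_cast
  rw [hz']
  refine le_trans (le_of_eq ?_) (add_le_add_left h (2 * sS L))
  unfold sS
  ring

theorem sound_D {l0 l1 l2 : ℕ} (hl : l0 + l1 + l2 ≤ 2 ^ 40) {z : ℕ}
    (hz : z = Nat.sub 1208925819614629174706176 (Nat.add (Nat.add (Nat.mul l0 l0) (Nat.mul l1 l1))
      (Nat.mul l2 l2))) (L : Vec 3) (hS : 0 < sS L) :
    dot (v3 (Nat.add (Nat.shiftLeft l0 41) z) (Nat.add (Nat.shiftLeft l1 41) z)
      (Nat.add (Nat.shiftLeft l2 41) z) 80) L ≤ cC2 L + sS L := by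
  have h3 : l0 * l0 + l1 * l1 + l2 * l2 ≤ 1208925819614629174706176 := by
    have h4 : (l0 + l1 + l2) ^ 2 ≤ (2 ^ 40) ^ 2 := Nat.pow_le_pow_left hl 2
    have h5 : l0 * l0 + l1 * l1 + l2 * l2 ≤ (l0 + l1 + l2) ^ 2 := by
      have e : (l0 + l1 + l2) ^ 2 = l0 * l0 + l1 * l1 + l2 * l2 +
          2 * (l0 * l1 + l0 * l2 + l1 * l2) := by ring
      rw [e]
      exact Nat.le_add_right _ _
    calc _ ≤ _ := h5
      _ ≤ _ := h4
      _ = _ := by norm_num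
  have hz' : (z : ℝ) = 2 ^ 80 - ((l0 : ℝ) ^ 2 + (l1 : ℝ) ^ 2 + (l2 : ℝ) ^ 2) := by
    rw [hz]
    simp only [Nat.add_eq, Nat.mul_eq, Nat.sub_eq]
    rw [Nat.cast_sub h3]
    push_cast
    ring
  have h := cC2_tan ((l0 : ℝ) / 2 ^ 40) ((l1 : ℝ) / 2 ^ 40) ((l2 : ℝ) / 2 ^ 40) hS
  simp only [dot, v3, Matrix.cons_val_zero, Matrix.cons_val_one, Matrix.cons_val_two,
    Matrix.head_cons, Matrix.tail_cons, Nat.add_eq, sound_shl]
  push_cast
  rw [hz']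
  refine le_trans (le_of_eq ?_) (add_le_add_left h (sS L))
  unfold sS
  ring

theorem sound_n2_pos : 0 < n2 := by unfold n2; norm_num
theorem sound_a0c_pos : 0 < a0c := by unfold a0c; norm_num

theorem sound_l (n y1 y2 : ℕ) :
    Nat.div (Nat.shiftLeft n 41) (Nat.add (Nat.add (Nat.add n n) y1) y2) +
      Nat.div (Nat.shiftLeft y1 40) (Nat.add (Nat.add (Nat.add n n) y1) y2) +
      Nat.div (Nat.shiftLeft y2 40) (Nat.add (Nat.add (Nat.add n n) y1) y2) ≤ 2 ^ 40 := by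
  simp only [sound_shl, Nat.add_eq]
  change n * 2 ^ 41 / (n + n + y1 + y2) + y1 * 2 ^ 40 / (n + n + y1 + y2) +
    y2 * 2 ^ 40 / (n + n + y1 + y2) ≤ 2 ^ 40
  refine le_trans (Nat.add_le_add_right (Nat.div_add_div_le_add_div) _) ?_
  refine le_trans (Nat.div_add_div_le_add_div) ?_
  refine Nat.div_le_of_le_mul (le_of_eq ?_)
  ring

theorem sound_lin3_le (c0 c1 c2 x0 x1 x2 s : ℕ) :
    (lin3 c0 c1 c2 x0 x1 x2 (s + 112) : ℝ) * 2 ^ 112 ≤
      (c0 : ℝ) / 2 ^ s * x0 + (c1 : ℝ) / 2 ^ s * x1 + (c2 : ℝ) / 2 ^ s * x2 := by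
  unfold lin3
  simp only [sound_shr, Nat.add_eq, Nat.mul_eq]
  have h := Nat.cast_div_le (α := ℝ) (m := c0 * x0 + c1 * x1 + c2 * x2) (n := 2 ^ (s + 112))
  refine le_trans (mul_le_mul_of_nonneg_right h (by positivity)) (le_of_eq ?_)
  rw [Nat.cast_pow, pow_add]
  simp only [Nat.cast_add, Nat.cast_mul, Nat.cast_ofNat]
  field_simp

theorem sound_le_lin3 (c0 c1 c2 x0 x1 x2 s : ℕ) :
    (c0 : ℝ) / 2 ^ s * x0 + (c1 : ℝ) / 2 ^ s * x1 + (c2 : ℝ) / 2 ^ s * x2 ≤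
      ((Nat.succ (lin3 c0 c1 c2 x0 x1 x2 (s + 112)) : ℕ) : ℝ) * 2 ^ 112 := by
  unfold lin3
  simp only [sound_shr, Nat.add_eq, Nat.mul_eq]
  have h := sound_div_le (c0 * x0 + c1 * x1 + c2 * x2) (2 ^ (s + 112)) (by positivity)
  refine le_trans (le_of_eq ?_) (mul_le_mul_of_nonneg_right h (by positivity))
  rw [Nat.cast_pow, pow_add]
  simp only [Nat.cast_add, Nat.cast_mul, Nat.cast_ofNat]
  field_simp

theorem mkT_spec (u v : Vx) : ∃ t, TgOk t ∧ ∀ k : Tg → Bool, mkT u v k = k t := by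
  refine ⟨mkT u v id, ?_, fun k => ?_⟩
  · simp only [mkT, force_eq, id, TgOk]
    refine ⟨sound_Q (Nat.add_pos_left sound_a0c_pos _) (Nat.succ_pos _) (Nat.succ_pos _),
      sound_H (Nat.mul_pos (Nat.add_pos_left sound_a0c_pos _) (Nat.add_pos_left sound_a0c_pos _))
        (Nat.mul_pos (Nat.succ_pos _) (Nat.succ_pos _)) (Nat.mul_pos (Nat.succ_pos _) (Nat.succ_pos _)),
      sound_H (Nat.pow_pos (Nat.succ_pos _)) (Nat.pow_pos (Nat.succ_pos _)) (Nat.pow_pos (Nat.succ_pos _)),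
      sound_G (Nat.succ_pos _) (Nat.succ_pos _),
      sound_C (sound_l _ _ _) rfl, fun L _ hS => sound_D (sound_l _ _ _) rfl L hS⟩
  · simp only [mkT, force_eq, id]

theorem vchk_sound {c : Cf} {cs : List Co} {nD : ℕ} {p : Pre} (hp : PreOk c cs nD p) {t : Tg} {a : ℕ}
    {v : Vx} (hv : VOk c cs v) (h : vchk p t (hiM a (cs.length + 1)) v = true) (i : ℕ) (hi : i < cs.length)
    (ha : a ≤ i + 1) :
    VIneq cs[i] c (v3 t.Q0 t.Q1 t.Q2 40) (v3 t.H0 t.H1 t.H2 40) (v3 t.B0 t.B1 t.B2 40)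
      (v3 t.G0 t.G1 t.G2 40) (v3 t.C0 t.C1 t.C2 120) (v3 t.D0 t.D1 t.D2 80) (vec v.x v.r) := by
  obtain ⟨fP, hP, hP'⟩ := hv.P
  obtain ⟨fQ', hQ, hQ'⟩ := hv.Q
  simp only [vchk, force_eq] at h
  rw [hp.HI, hp.BD, hp.o] at h
  dsimp only at h
  have key := cmpL_sound
    (hP.add (((isP_pack Co.kp cs).mul _).add ((isP_pack Co.km cs).mul _)))
    (hQ.add ((((isP_pack Co.aQ cs).mul _).add ((isP_pack Co.aH cs).mul _)).add
      (((isP_pack Co.wH cs).mul _).add ((isP_pack Co.nM cs).mul _)))) h (i + 1) ha hi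
  simp only [pkf_succ _ cs hi] at key
  have key' := mul_le_mul_of_nonneg_right ((Nat.cast_le (α := ℝ)).2 key) (show (0 : ℝ) ≤ 2 ^ 112 by positivity)
  have hL1 : (v.L1 : ℝ) = (v.x : ℝ) * nN := by rw [hv.L1, Nat.cast_mul]
  have hL2 : (v.L2 : ℝ) = (v.x : ℝ) * v.r := by rw [hv.L2, Nat.cast_mul]
  have c1 := sound_lin3_le t.C0 t.C1 t.C2 n2 v.L1 v.L2 120
  have c2 := sound_lin3_le t.D0 t.D1 t.D2 n2 v.L1 v.L2 80
  have d1 := sound_le_lin3 t.Q0 t.Q1 t.Q2 n2 v.L1 v.L2 40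
  have d2 := sound_le_lin3 t.H0 t.H1 t.H2 n2 v.L1 v.L2 40
  have d3 := sound_le_lin3 t.B0 t.B1 t.B2 v.b0 v.b1 v.b2 40
  have d4 := sound_le_lin3 t.G0 t.G1 t.G2 v.b0 v.b1 v.b2 40
  rw [hL1, hL2] at c1 c2 d1 d2
  rw [hv.b0, hv.b1, hv.b2] at d3 d4
  have e1 : (120 + 112 : ℕ) = 232 := rfl
  have e2 : (80 + 112 : ℕ) = 192 := rfl
  have e3 : (40 + 112 : ℕ) = 152 := rfl
  rw [e1] at c1
  rw [e2] at c2
  rw [e3] at d1 d2 d3 d4
  have c1' := mul_le_mul_of_nonneg_left c1 (Nat.cast_nonneg (α := ℝ) cs[i].kp)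
  have c2' := mul_le_mul_of_nonneg_left c2 (Nat.cast_nonneg (α := ℝ) cs[i].km)
  have d1' := mul_le_mul_of_nonneg_left d1 (Nat.cast_nonneg (α := ℝ) cs[i].aQ)
  have d2' := mul_le_mul_of_nonneg_left d2 (Nat.cast_nonneg (α := ℝ) cs[i].aH)
  have d3' := mul_le_mul_of_nonneg_left d3 (Nat.cast_nonneg (α := ℝ) cs[i].wH)
  have d4' := mul_le_mul_of_nonneg_left d4 (Nat.cast_nonneg (α := ℝ) cs[i].nM)
  have hP2 := hP' i hi
  have hQ2 := hQ' i hi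
  unfold VIneq
  simp only [dot, v3, Matrix.cons_val_zero, Matrix.cons_val_one, Matrix.cons_val_two,
    Matrix.head_cons, Matrix.tail_cons]
  have w0 : vec (v.x : ℝ) (v.r : ℝ) 0 = (n2 : ℝ) := rfl
  have w1 : vec (v.x : ℝ) (v.r : ℝ) 1 = (v.x : ℝ) * nN := rfl
  have w2 : vec (v.x : ℝ) (v.r : ℝ) 2 = (v.x : ℝ) * v.r := rfl
  rw [w0, w1, w2]
  simp only [Nat.cast_add, Nat.cast_mul] at key'
  generalize ((Nat.succ (lin3 t.Q0 t.Q1 t.Q2 n2 v.L1 v.L2 152) : ℕ) : ℝ) = y1 at *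
  generalize ((Nat.succ (lin3 t.H0 t.H1 t.H2 n2 v.L1 v.L2 152) : ℕ) : ℝ) = y2 at *
  generalize ((Nat.succ (lin3 t.B0 t.B1 t.B2 v.b0 v.b1 v.b2 152) : ℕ) : ℝ) = y3 at *
  generalize ((Nat.succ (lin3 t.G0 t.G1 t.G2 v.b0 v.b1 v.b2 152) : ℕ) : ℝ) = y4 at *
  generalize ((lin3 t.C0 t.C1 t.C2 n2 v.L1 v.L2 232 : ℕ) : ℝ) = y5 at *
  generalize ((lin3 t.D0 t.D1 t.D2 n2 v.L1 v.L2 192 : ℕ) : ℝ) = y6 at *
  generalize (2 : ℝ) ^ 112 = E at *
  linarith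

theorem sound_cell {c : Cf} {t D : ℝ} (hc : c.Ok t D) {ls : List (LD × ℕ)} {nD : ℕ} {p : Pre}
    (hp : PreOk c (ls.map (coefs c)) nD p) {v00 v01 v10 v11 : Vx} (h00 : VOk c (ls.map (coefs c)) v00)
    (h01 : VOk c (ls.map (coefs c)) v01) (h10 : VOk c (ls.map (coefs c)) v10)
    (h11 : VOk c (ls.map (coefs c)) v11) (e1 : v01.x = v00.x) (e2 : v10.r = v00.r) (e3 : v11.x = v10.x)
    (e4 : v11.r = v01.r) {tg : Tg} (ht : TgOk tg) {a : ℕ}
    (h : (and (and (vchk p tg (hiM a ((ls.map (coefs c)).length + 1)) v00)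
      (vchk p tg (hiM a ((ls.map (coefs c)).length + 1)) v01))
      (and (vchk p tg (hiM a ((ls.map (coefs c)).length + 1)) v10)
      (vchk p tg (hiM a ((ls.map (coefs c)).length + 1)) v11))) = true)
    {x r : ℝ} (h1 : (v00.x : ℝ) ≤ x) (h2 : x ≤ v10.x) (h3 : (v00.r : ℝ) ≤ r) (h4 : r ≤ v01.r)
    (i : ℕ) (hi : i < ls.length) (ha : a ≤ i + 1) :
    0 ≤ ls[i].1.toLane.F3 t ((ls[i].2 : ℝ) / 20) (vec x r) := by
  simp only [Bool.and_eq_true] at h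
  obtain ⟨⟨k00, k01⟩, k10, k11⟩ := h
  have hi' : i < (ls.map (coefs c)).length := by simpa using hi
  have a00 := vchk_sound hp h00 k00 i hi' ha
  have a01 := vchk_sound hp h01 k01 i hi' ha
  have a10 := vchk_sound hp h10 k10 i hi' ha
  have a11 := vchk_sound hp h11 k11 i hi' ha
  rw [e1] at a01
  rw [e2] at a10
  rw [e3, e4] at a11
  have key := cell_nf hc.le ht (Nat.cast_nonneg _) (Nat.cast_nonneg _) h1 h2 h3 h4 a00 a01 a10 a11
  have hx : 0 ≤ x := le_trans (Nat.cast_nonneg _) h1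
  have hr : 0 ≤ r := le_trans (Nat.cast_nonneg _) h3
  have hn : (0 : ℝ) < n2 := Nat.cast_pos.2 sound_n2_pos
  have w1 : (0 : ℝ) ≤ x * nN := mul_nonneg hx (Nat.cast_nonneg _)
  have w2 : (0 : ℝ) ≤ x * r := mul_nonneg hx hr
  have hNN : NN (vec x r) := by
    intro j
    fin_cases j
    · exact hn.le
    · exact w1
    · exact w2
  have hS : 0 < sS (vec x r) := by
    have e : sS (vec x r) = (n2 : ℝ) + x * nN + x * r := rfl
    rw [e]
    linarith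
  rw [List.getElem_map, nf_eq hc _ hNN hS] at key
  have hM : (0 : ℝ) < c.M := Nat.cast_pos.2 hc.M_pos
  have := nonneg_of_mul_nonneg_right key hM
  linarith

theorem leaf_sound {c : Cf} {t D : ℝ} (hc : c.Ok t D) {ls : List (LD × ℕ)} {nD : ℕ} {p : Pre}
    (hp : PreOk c (ls.map (coefs c)) nD p) {v00 v01 v10 v11 : Vx} (h00 : VOk c (ls.map (coefs c)) v00)
    (h01 : VOk c (ls.map (coefs c)) v01) (h10 : VOk c (ls.map (coefs c)) v10)
    (h11 : VOk c (ls.map (coefs c)) v11) (e1 : v01.x = v00.x) (e2 : v10.r = v00.r) (e3 : v11.x = v10.x)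
    (e4 : v11.r = v01.r) (h : leaf p v00 v01 v10 v11 = true) :
    HoldsR t ls nD v00.x v10.x v00.r v01.r := by
  obtain ⟨tg, ht, hk⟩ := mkT_spec v00 v11
  simp only [leaf, force_eq] at h
  rw [hk] at h
  intro x r h1 h2 h3 h4 i hi
  cases hb : Nat.ble (Nat.mul 3 n2) (Nat.mul 4 v00.L2) with
  | false =>
    rw [hb] at h
    dsimp only at h
    rw [hp.mA] at h
    exact Or.inr (sound_cell hc hp h00 h01 h10 h11 e1 e2 e3 e4 ht h h1 h2 h3 h4 i hi (by omega))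
  | true =>
    rw [hb] at h
    dsimp only at h
    rw [hp.mL] at h
    by_cases hd : i < nD
    · refine Or.inl ⟨hd, ?_⟩
      have h5 : 3 * n2 ≤ 4 * v00.L2 := Nat.le_of_ble_eq_true hb
      rw [h00.L2] at h5
      have h6 : ((3 * n2 : ℕ) : ℝ) ≤ ((4 * (v00.x * v00.r) : ℕ) : ℝ) := Nat.cast_le.2 h5
      simp only [Nat.cast_mul, Nat.cast_ofNat] at h6
      have h7 : (v00.x : ℝ) * v00.r ≤ x * r :=
        mul_le_mul h1 h3 (Nat.cast_nonneg _) (le_trans (Nat.cast_nonneg _) h1)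
      linarith
    · exact Or.inr (sound_cell hc hp h00 h01 h10 h11 e1 e2 e3 e4 ht h h1 h2 h3 h4 i hi (by omega))

theorem sound_run_z (p : Pre) (v00 v01 v10 v11 : Vx) :
    run p Tr.z v00 v01 v10 v11 = leaf p v00 v01 v10 v11 := rfl

theorem sound_run_x (p : Pre) (l r : Tr) (v00 v01 v10 v11 : Vx) :
    run p (Tr.x l r) v00 v01 v10 v11 =
      force (Nat.shiftRight (Nat.add v00.X v10.X) 1) fun X => force (up X) fun x =>
      mkM p X v00.R x v00.r v00 v10 fun w0 => mkM p X v01.R x v01.r v01 v11 fun w1 =>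
      and (run p l v00 v01 w0 w1) (run p r w0 w1 v10 v11) := rfl

theorem sound_run_y (p : Pre) (l r : Tr) (v00 v01 v10 v11 : Vx) :
    run p (Tr.y l r) v00 v01 v10 v11 =
      force (Nat.shiftRight (Nat.add v00.R v01.R) 1) fun R => force (up R) fun r' =>
      mkM p v00.X R v00.x r' v00 v01 fun w0 => mkM p v10.X R v10.x r' v10 v11 fun w1 =>
      and (run p l v00 w0 v10 w1) (run p r w0 v01 w1 v11) := rfl

theorem run_sound {c : Cf} {t D : ℝ} (hc : c.Ok t D) {ls : List (LD × ℕ)} {nD : ℕ} {p : Pre}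
    (hp : PreOk c (ls.map (coefs c)) nD p) (tr : Tr) {v00 v01 v10 v11 : Vx}
    (h00 : VOk c (ls.map (coefs c)) v00) (h01 : VOk c (ls.map (coefs c)) v01)
    (h10 : VOk c (ls.map (coefs c)) v10) (h11 : VOk c (ls.map (coefs c)) v11) (e1 : v01.x = v00.x)
    (e2 : v10.r = v00.r) (e3 : v11.x = v10.x) (e4 : v11.r = v01.r)
    (h : run p tr v00 v01 v10 v11 = true) : HoldsR t ls nD v00.x v10.x v00.r v01.r := by
  induction tr generalizing v00 v01 v10 v11 with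
  | z =>
    rw [sound_run_z] at h
    exact leaf_sound hc hp h00 h01 h10 h11 e1 e2 e3 e4 h
  | x l r il ir =>
    rw [sound_run_x, force_eq, force_eq] at h
    generalize Nat.shiftRight (Nat.add v00.X v10.X) 1 = X at h
    generalize up X = x at h
    obtain ⟨w0, k0, a0, b0, c0⟩ := mkM_spec hc.le hp X v00.R x v00.r v00 v10
    obtain ⟨w1, k1, a1, b1, c1⟩ := mkM_spec hc.le hp X v01.R x v01.r v01 v11
    rw [c0, c1, Bool.and_eq_true] at h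
    have g1 := il h00 h01 k0 k1 e1 b0 (a1.trans a0.symm) b1 h.1
    have g2 := ir k0 k1 h10 h11 (a1.trans a0.symm) (e2.trans b0.symm) e3 (e4.trans b1.symm) h.2
    rw [b0, b1] at g2
    intro x' r' h1 h2 h3 h4
    rcases le_total x' (w0.x : ℝ) with h5 | h5
    · exact g1 x' r' h1 h5 h3 h4
    · exact g2 x' r' h5 h2 h3 h4
  | y l r il ir =>
    rw [sound_run_y, force_eq, force_eq] at h
    generalize Nat.shiftRight (Nat.add v00.R v01.R) 1 = R at h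
    generalize up R = y at h
    obtain ⟨w0, k0, a0, b0, c0⟩ := mkM_spec hc.le hp v00.X R v00.x y v00 v01
    obtain ⟨w1, k1, a1, b1, c1⟩ := mkM_spec hc.le hp v10.X R v10.x y v10 v11
    rw [c0, c1, Bool.and_eq_true] at h
    have g1 := il h00 k0 h10 k1 a0 e2 a1 (b1.trans b0.symm) h.1
    have g2 := ir k0 h01 k1 h11 (e1.trans a0.symm) (b1.trans b0.symm) (e3.trans a1.symm) e4 h.2
    rw [a0, a1] at g2
    intro x' r' h1 h2 h3 h4
    rcases le_total r' (w0.r : ℝ) with h5 | h5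
    · exact g1 x' r' h1 h2 h3 h5
    · exact g2 x' r' h1 h2 h5 h4

theorem chk_sound {c : Cf} {t D : ℝ} (hc : c.Ok t D) {tP tM : Tb} (hP : TabOK true tP)
    (hM : TabOK false tM) {ls : List (LD × ℕ)} {nD X0 X1 R0 R1 : ℕ} {tr : Tr}
    (h : chk c tP tM ls nD X0 X1 R0 R1 tr = true) : Holds t ls nD X0 X1 R0 R1 := by
  obtain ⟨p, hp, hk⟩ := mkPre_spec c hP hM ls nD
  unfold chk at h
  rw [hk, force_eq, force_eq, force_eq, force_eq] at h
  unfold Holds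
  generalize up X0 = x0 at h ⊢
  generalize up X1 = x1 at h ⊢
  generalize up R0 = r0 at h ⊢
  generalize up R1 = r1 at h ⊢
  generalize Nat.mul 64 h38 = g at h
  obtain ⟨v00, k00, a00, b00, c00⟩ := mkV_spec hc.le hp X0 R0 x0 r0 h38 h38 h38 g
  obtain ⟨v01, k01, a01, b01, c01⟩ := mkV_spec hc.le hp X0 R1 x0 r1 h38 h38 h38 g
  obtain ⟨v10, k10, a10, b10, c10⟩ := mkV_spec hc.le hp X1 R0 x1 r0 h38 h38 h38 g
  obtain ⟨v11, k11, a11, b11, c11⟩ := mkV_spec hc.le hp X1 R1 x1 r1 h38 h38 h38 g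
  rw [c00, c01, c10, c11] at h
  have key := run_sound hc hp tr k00 k01 k10 k11 (a01.trans a00.symm) (b10.trans b00.symm)
    (a11.trans a10.symm) (b11.trans b01.symm) h
  rwa [a00, a10, b00, b01] at key

end Crest.Agent.R163.E3
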