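import Crest.Agent.R163.E3.Pack

/-!
# R163/E3/Vert: the vertex records

Unfold `mkV` with `force_eq` (never let `simp`/`norm_num`/`decide` evaluate the body; generalise the intermediate numbers).  `P` and `Q` are sums of
`Nat.mul (pack …) value` (`isP_pack`, `IsP.add`, `IsP.mul`, `pkf_succ`); each value is compared with its functional at `vec x r`:
`le_fQ`, `le_fH` (+ `root4_pow`), `unp_chords`, `le_gm` (+ `root3_pow`, `chkR_pow`; `g³ ≤ B / 2^324` gives `(g 2^108)³ ≤ B`), floor/ceiling of divisions.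
-/

set_option autoImplicit false

namespace Crest.Agent.R163.E3

open E2 Finset

structure PreOk (c : Cf) (cs : List Co) (nD : ℕ) (p : Pre) : Prop where
  cS : p.cS = c.cS
  cL : p.cL = c.cL
  tP : TabOK true p.tP
  tM : TabOK false p.tM
  o : p.o = ⟨pack Co.uQ cs, pack Co.uH cs, pack Co.u1 cs, pack Co.u2 cs, pack Co.u3 cs, pack Co.u4 cs,
    pack Co.k1 cs, pack Co.k2 cs, pack Co.k3 cs, pack Co.k4 cs, pack Co.eG cs, pack Co.nP cs, pack Co.cP cs,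
    pack Co.kp cs, pack Co.km cs, pack Co.aQ cs, pack Co.aH cs, pack Co.wH cs, pack Co.nM cs, pack Co.cM cs⟩
  HI : p.HI = hiM 0 (cs.length + 2)
  BD : p.BD = Nat.pow 2 (96 * (cs.length + 1) + 95)
  mA : p.mA = hiM 1 (cs.length + 1)
  mL : p.mL = hiM (nD + 1) (cs.length + 1)

theorem mkPre_spec (c : Cf) {tP tM : Tb} (hP : TabOK true tP) (hM : TabOK false tM) (ls : List (LD × ℕ))
    (nD : ℕ) : ∃ p, PreOk c (ls.map (coefs c)) nD p ∧ ∀ k : Pre → Bool, mkPre c tP tM ls nD k = k p := by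
  unfold mkPre
  generalize ls.map (coefs c) = cs
  refine ⟨⟨c.cS, c.cL, tP, tM, ⟨pack Co.uQ cs, pack Co.uH cs, pack Co.u1 cs, pack Co.u2 cs,
    pack Co.u3 cs, pack Co.u4 cs, pack Co.k1 cs, pack Co.k2 cs, pack Co.k3 cs, pack Co.k4 cs,
    pack Co.eG cs, pack Co.nP cs, pack Co.cP cs, pack Co.kp cs, pack Co.km cs, pack Co.aQ cs,
    pack Co.aH cs, pack Co.wH cs, pack Co.nM cs, pack Co.cM cs⟩, hiM 0 (cs.length + 2),
    Nat.pow 2 (96 * (cs.length + 1) + 95), hiM 1 (cs.length + 1), hiM (nD + 1) (cs.length + 1)⟩,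
    ⟨rfl, rfl, hP, hM, by dsimp only, by dsimp only, by dsimp only, by dsimp only, by dsimp only⟩,
    fun k => ?_⟩
  simp only [force_eq]

structure VOk (c : Cf) (cs : List Co) (v : Vx) : Prop where
  L1 : v.L1 = v.x * nN
  L2 : v.L2 = v.x * v.r
  b0 : (v.b0 : ℝ) = c.bv (vec v.x v.r) 0
  b1 : (v.b1 : ℝ) = c.bv (vec v.x v.r) 1
  b2 : (v.b2 : ℝ) = c.bv (vec v.x v.r) 2
  P : ∃ f, IsP cs.length v.P f ∧
    ∀ (i : ℕ) (hi : i < cs.length), (f (i + 1) : ℝ) * 2 ^ 112 ≤ cs[i].vP c (vec v.x v.r)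
  Q : ∃ f, IsP cs.length v.Q f ∧
    ∀ (i : ℕ) (hi : i < cs.length), cs[i].vN (vec v.x v.r) ≤ (f (i + 1) : ℝ) * 2 ^ 112

theorem Vert_shr (A s : ℕ) : (Nat.shiftRight A s : ℝ) * 2 ^ s ≤ A := by
  have h : Nat.shiftRight A s * 2 ^ s ≤ A := by
    rw [Nat.shiftRight_eq, Nat.shiftRight_eq_div_pow]
    exact Nat.div_mul_le_self _ _
  exact_mod_cast h

theorem Vert_shr' (A s : ℕ) : (A : ℝ) ≤ (Nat.succ (Nat.shiftRight A s) : ℕ) * 2 ^ s := by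
  have h : A ≤ Nat.succ (Nat.shiftRight A s) * 2 ^ s := by
    rw [Nat.shiftRight_eq, Nat.shiftRight_eq_div_pow, mul_comm]
    exact (Nat.lt_mul_div_succ A (Nat.two_pow_pos s)).le
  exact_mod_cast h

theorem Vert_div (A D s : ℕ) (hD : 0 < D) :
    (A : ℝ) / D ≤ (Nat.succ (Nat.div A (Nat.shiftLeft D s)) : ℕ) * 2 ^ s := by
  have h : A ≤ Nat.succ (Nat.div A (Nat.shiftLeft D s)) * 2 ^ s * D := by
    rw [Nat.shiftLeft_eq', Nat.shiftLeft_eq, mul_assoc, mul_comm (2 ^ s), mul_comm]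
    exact (Nat.lt_mul_div_succ A (Nat.mul_pos hD (Nat.two_pow_pos s))).le
  rw [div_le_iff₀ (by exact_mod_cast hD)]
  exact_mod_cast h

section
variable {V : Vec 3} {b0 b1 b2 q0 q1 q2 : ℕ}

theorem Vert_phiQ (e0 : (b0 : ℝ) = V 0) (e1 : (b1 : ℝ) = V 1) (e2 : (b2 : ℝ) = V 2)
    (h0 : q0 ^ 4 ≤ b0) (h1 : q1 ^ 4 ≤ b1) (h2 : q2 ^ 4 ≤ b2) :
    (phiQ q0 q1 q2 (Nat.mul q0 q0) (Nat.mul q1 q1) (Nat.mul q2 q2) : ℝ) * 2 ^ 112 ≤ prs fQ V := by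
  have k0 : (q0 : ℝ) ^ 4 ≤ V 0 := by rw [← e0]; exact_mod_cast h0
  have k1 : (q1 : ℝ) ^ 4 ≤ V 1 := by rw [← e1]; exact_mod_cast h1
  have k2 : (q2 : ℝ) ^ 4 ≤ V 2 := by rw [← e2]; exact_mod_cast h2
  have a01 := le_fQ (Nat.cast_nonneg _) (Nat.cast_nonneg _) k0 k1
  have a02 := le_fQ (Nat.cast_nonneg _) (Nat.cast_nonneg _) k0 k2
  have a12 := le_fQ (Nat.cast_nonneg _) (Nat.cast_nonneg _) k1 k2
  have h := Vert_shr (Nat.add (Nat.add (Nat.mul (Nat.mul q0 q1) (Nat.add (Nat.mul q0 q0) (Nat.mul q1 q1)))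
    (Nat.mul (Nat.mul q0 q2) (Nat.add (Nat.mul q0 q0) (Nat.mul q2 q2))))
    (Nat.mul (Nat.mul q1 q2) (Nat.add (Nat.mul q1 q1) (Nat.mul q2 q2)))) 113
  unfold phiQ prs
  generalize Nat.shiftRight _ 113 = z at h ⊢
  simp only [Nat.add_eq, Nat.mul_eq, Nat.cast_add, Nat.cast_mul] at h
  rw [pow_succ (2 : ℝ) 112] at h
  generalize (2 : ℝ) ^ 112 = w at h ⊢
  linarith

theorem Vert_phiH (e0 : (b0 : ℝ) = V 0) (e1 : (b1 : ℝ) = V 1) (e2 : (b2 : ℝ) = V 2)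
    (h0 : q0 ^ 4 ≤ b0) (h1 : q1 ^ 4 ≤ b1) (h2 : q2 ^ 4 ≤ b2) :
    (phiH (Nat.mul q0 q0) (Nat.mul q1 q1) (Nat.mul q2 q2) : ℝ) * 2 ^ 112 ≤ prs fH V := by
  have k0 : (q0 : ℝ) ^ 4 ≤ V 0 := by rw [← e0]; exact_mod_cast h0
  have k1 : (q1 : ℝ) ^ 4 ≤ V 1 := by rw [← e1]; exact_mod_cast h1
  have k2 : (q2 : ℝ) ^ 4 ≤ V 2 := by rw [← e2]; exact_mod_cast h2
  have a01 := le_fH (Nat.cast_nonneg _) (Nat.cast_nonneg _) k0 k1
  have a02 := le_fH (Nat.cast_nonneg _) (Nat.cast_nonneg _) k0 k2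
  have a12 := le_fH (Nat.cast_nonneg _) (Nat.cast_nonneg _) k1 k2
  have h := Vert_shr (Nat.add (Nat.mul (Nat.mul q0 q0) (Nat.add (Nat.mul q1 q1) (Nat.mul q2 q2)))
    (Nat.mul (Nat.mul q1 q1) (Nat.mul q2 q2))) 112
  unfold phiH prs
  generalize Nat.shiftRight _ 112 = z at h ⊢
  simp only [Nat.add_eq, Nat.mul_eq, Nat.cast_add, Nat.cast_mul] at h
  generalize (2 : ℝ) ^ 112 = w at h ⊢
  linarith

theorem Vert_gm {g : ℕ} (e0 : (b0 : ℝ) = V 0) (e1 : (b1 : ℝ) = V 1) (e2 : (b2 : ℝ) = V 2)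
    (h : g ^ 3 ≤ Nat.shiftRight (Nat.mul (Nat.mul b0 b1) b2) 324) :
    (Nat.shiftRight g 4 : ℝ) * 2 ^ 112 ≤ gm V := by
  have hV : NN V := fun i => by
    fin_cases i
    · exact e0 ▸ Nat.cast_nonneg b0
    · exact e1 ▸ Nat.cast_nonneg b1
    · exact e2 ▸ Nat.cast_nonneg b2
  have h1 := Vert_shr (Nat.mul (Nat.mul b0 b1) b2) 324
  have h2 : (g : ℝ) ^ 3 ≤ (Nat.shiftRight (Nat.mul (Nat.mul b0 b1) b2) 324 : ℕ) := by
    exact_mod_cast h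
  have h3 : (g : ℝ) * 2 ^ 108 ≤ gm V := by
    refine le_gm hV ?_
    rw [← e0, ← e1, ← e2, mul_pow, ← pow_mul]
    refine le_trans (mul_le_mul_of_nonneg_right h2 (by positivity)) (h1.trans (le_of_eq ?_))
    simp only [Nat.mul_eq, Nat.cast_mul]
  refine le_trans ?_ h3
  rw [show 112 = 4 + 108 from rfl, pow_add, ← mul_assoc]
  exact mul_le_mul_of_nonneg_right (Vert_shr g 4) (by positivity)

end

theorem Vert_P (c : Cf) (cs : List Co) (L : Vec 3) (vQ vH AP AM vG vB Sl : ℕ)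
    (hQ : (vQ : ℝ) * 2 ^ 112 ≤ prs fQ (c.bv L)) (hH : (vH : ℝ) * 2 ^ 112 ≤ prs fH (c.bv L))
    (hP : ∀ k < 4, (unp AP (96 * k + 44) : ℝ) * 2 ^ 112 ≤ prs (Kf true (k + 1)) (c.bv L))
    (hM : ∀ k < 4, (unp AM (96 * k + 44) : ℝ) * 2 ^ 112 ≤ prs (Kf false (k + 1)) L)
    (hG : (vG : ℝ) * 2 ^ 112 ≤ gm L) (hB : (vB : ℝ) * 2 ^ 112 ≤ gm (c.bv L))
    (hS : (Sl : ℝ) * 2 ^ 112 ≤ sS L) :
    ∃ f, IsP cs.length (Nat.add
      (Nat.add (Nat.add (Nat.mul (pack Co.uQ cs) vQ) (Nat.mul (pack Co.uH cs) vH))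
        (Nat.add (dot4 (pack Co.u1 cs) (pack Co.u2 cs) (pack Co.u3 cs) (pack Co.u4 cs) AP)
          (dot4 (pack Co.k1 cs) (pack Co.k2 cs) (pack Co.k3 cs) (pack Co.k4 cs) AM)))
      (Nat.add (Nat.add (Nat.mul (pack Co.eG cs) vG) (Nat.mul (pack Co.nP cs) vB))
        (Nat.mul (pack Co.cP cs) Sl))) f ∧
      ∀ (i : ℕ) (hi : i < cs.length), (f (i + 1) : ℝ) * 2 ^ 112 ≤ cs[i].vP c L := by
  refine ⟨_, ((((isP_pack _ cs).mul _).add ((isP_pack _ cs).mul _)).add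
    (((((isP_pack _ cs).mul _).add ((isP_pack _ cs).mul _)).add
      (((isP_pack _ cs).mul _).add ((isP_pack _ cs).mul _))).add
    ((((isP_pack _ cs).mul _).add ((isP_pack _ cs).mul _)).add
      (((isP_pack _ cs).mul _).add ((isP_pack _ cs).mul _))))).add
    ((((isP_pack _ cs).mul _).add ((isP_pack _ cs).mul _)).add ((isP_pack _ cs).mul _)),
    fun i hi => ?_⟩
  have p1 : (unp AP 44 : ℝ) * 2 ^ 112 ≤ prs (Kf true 1) (c.bv L) := hP 0 (by omega)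
  have p2 : (unp AP 140 : ℝ) * 2 ^ 112 ≤ prs (Kf true 2) (c.bv L) := hP 1 (by omega)
  have p3 : (unp AP 236 : ℝ) * 2 ^ 112 ≤ prs (Kf true 3) (c.bv L) := hP 2 (by omega)
  have p4 : (unp AP 332 : ℝ) * 2 ^ 112 ≤ prs (Kf true 4) (c.bv L) := hP 3 (by omega)
  have m1 : (unp AM 44 : ℝ) * 2 ^ 112 ≤ prs (Kf false 1) L := hM 0 (by omega)
  have m2 : (unp AM 140 : ℝ) * 2 ^ 112 ≤ prs (Kf false 2) L := hM 1 (by omega)
  have m3 : (unp AM 236 : ℝ) * 2 ^ 112 ≤ prs (Kf false 3) L := hM 2 (by omega)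
  have m4 : (unp AM 332 : ℝ) * 2 ^ 112 ≤ prs (Kf false 4) L := hM 3 (by omega)
  simp only [pkf_succ _ _ hi, Nat.cast_add, Nat.cast_mul, Co.vP]
  generalize (2 : ℝ) ^ 112 = w at *
  have k : ∀ (n : ℕ) {a b : ℝ}, a ≤ b → n * a ≤ n * b := fun n _ _ h =>
    mul_le_mul_of_nonneg_left h (Nat.cast_nonneg n)
  linarith [k cs[i].uQ hQ, k cs[i].uH hH, k cs[i].u1 p1, k cs[i].u2 p2, k cs[i].u3 p3, k cs[i].u4 p4,
    k cs[i].k1 m1, k cs[i].k2 m2, k cs[i].k3 m3, k cs[i].k4 m4, k cs[i].eG hG, k cs[i].nP hB,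
    k cs[i].cP hS]

theorem Vert_Q (cs : List Co) (L : Vec 3) (v1 v2 v3 : ℕ) (h1 : cC1 L ≤ (v1 : ℝ) * 2 ^ 112)
    (h2 : cC2 L ≤ (v2 : ℝ) * 2 ^ 112) (h3 : sS L ≤ (v3 : ℝ) * 2 ^ 112) :
    ∃ f, IsP cs.length (Nat.add (Nat.add (Nat.mul (pack Co.km cs) v1) (Nat.mul (pack Co.kp cs) v2))
      (Nat.mul (pack Co.cM cs) v3)) f ∧
      ∀ (i : ℕ) (hi : i < cs.length), cs[i].vN L ≤ (f (i + 1) : ℝ) * 2 ^ 112 := by
  refine ⟨_, (((isP_pack _ cs).mul _).add ((isP_pack _ cs).mul _)).add ((isP_pack _ cs).mul _),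
    fun i hi => ?_⟩
  simp only [pkf_succ _ _ hi, Nat.cast_add, Nat.cast_mul, Co.vN]
  generalize (2 : ℝ) ^ 112 = w at *
  have k : ∀ (n : ℕ) {a b : ℝ}, a ≤ b → n * a ≤ n * b := fun n _ _ h =>
    mul_le_mul_of_nonneg_left h (Nat.cast_nonneg n)
  linarith [k cs[i].km h1, k cs[i].kp h2, k cs[i].cM h3]

theorem Vert_main {c : Cf} (hle : c.cL ≤ c.cS) {cs : List Co} {nD : ℕ} {p : Pre} (hp : PreOk c cs nD p)
    (X R x r L1 L2 S b0 b1 b2 : ℕ) (hL1 : L1 = x * nN) (hL2 : L2 = x * r)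
    (hS : S = Nat.add (Nat.add n2 L1) L2) (hb0 : b0 = Nat.sub (Nat.mul p.cS S) (Nat.mul p.cL n2))
    (hb1 : b1 = Nat.sub (Nat.mul p.cS S) (Nat.mul p.cL L1))
    (hb2 : b2 = Nat.sub (Nat.mul p.cS S) (Nat.mul p.cL L2)) (q0 q1 q2 g g' : ℕ)
    (h0 : q0 ^ 4 ≤ b0) (h1 : q1 ^ 4 ≤ b1) (h2 : q2 ^ 4 ≤ b2)
    (hg : g ^ 3 ≤ Nat.shiftRight (Nat.mul (Nat.mul b0 b1) b2) 324)
    (hg' : g' ^ 3 ≤ Nat.shiftRight (Nat.mul (Nat.mul n2 L1) L2) 324) (a1 a2 : ℕ) :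
    VOk c cs ⟨X, R, x, r, L1, L2, b0, b1, b2, a1, a2, q0, q1, q2, g,
      Nat.add
        (Nat.add (Nat.add
          (Nat.mul p.o.uQ (phiQ q0 q1 q2 (Nat.mul q0 q0) (Nat.mul q1 q1) (Nat.mul q2 q2)))
          (Nat.mul p.o.uH (phiH (Nat.mul q0 q0) (Nat.mul q1 q1) (Nat.mul q2 q2))))
          (Nat.add (dot4 p.o.u1 p.o.u2 p.o.u3 p.o.u4 (Nat.add (Nat.add
              (chord p.tP (clamp b1) (clamp b0) (Nat.mul q1 q1) (Nat.mul q0 q0))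
              (chord p.tP (clamp b2) (clamp b0) (Nat.mul q2 q2) (Nat.mul q0 q0)))
              (chord p.tP (clamp b2) (clamp b1) (Nat.mul q2 q2) (Nat.mul q1 q1))))
            (dot4 p.o.k1 p.o.k2 p.o.k3 p.o.k4 (Nat.add (Nat.add
              (chord p.tM (clamp n2) (clamp L1) (Nat.mul a0c a0c) (Nat.mul a1 a1))
              (chord p.tM (clamp n2) (clamp L2) (Nat.mul a0c a0c) (Nat.mul a2 a2)))
              (chord p.tM (clamp L1) (clamp L2) (Nat.mul a1 a1) (Nat.mul a2 a2))))))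
        (Nat.add (Nat.add (Nat.mul p.o.eG (Nat.shiftRight g' 4))
          (Nat.mul p.o.nP (Nat.shiftRight g 4))) (Nat.mul p.o.cP (Nat.shiftRight S 112))),
      Nat.add (Nat.add
        (Nat.mul p.o.km (Nat.succ (Nat.div (Nat.add (Nat.add (Nat.pow n2 3) (Nat.pow L1 3)) (Nat.pow L2 3))
          (Nat.shiftLeft (Nat.mul S S) 112))))
        (Nat.mul p.o.kp (Nat.succ (Nat.div (Nat.add (Nat.add (Nat.mul n2 n2) (Nat.mul L1 L1)) (Nat.mul L2 L2))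
          (Nat.shiftLeft S 112)))))
        (Nat.mul p.o.cM (Nat.succ (Nat.shiftRight S 112)))⟩ := by
  have e0 : (n2 : ℝ) = vec x r 0 := rfl
  have e1 : (L1 : ℝ) = vec x r 1 := by rw [hL1, Nat.cast_mul]; rfl
  have e2 : (L2 : ℝ) = vec x r 2 := by rw [hL2, Nat.cast_mul]; rfl
  have hn : 0 < n2 := by unfold n2; omega
  simp only [Nat.add_eq, Nat.sub_eq, Nat.mul_eq, hp.cS, hp.cL] at hS hb0 hb1 hb2
  have eS : (S : ℝ) = sS (vec x r) := by rw [sS, ← e0, ← e1, ← e2, hS, Nat.cast_add, Nat.cast_add]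
  have hb : ∀ (b y : ℕ) (i : Fin 3), y ≤ S → (y : ℝ) = vec x r i → b = c.cS * S - c.cL * y →
      (b : ℝ) = c.bv (vec x r) i := fun b y i hy ey hb => by
    rw [hb, Nat.cast_sub (Nat.mul_le_mul hle hy), Nat.cast_mul, Nat.cast_mul, Cf.bv, eS, ey]
  have f0 := hb b0 n2 0 (by omega) e0 hb0
  have f1 := hb b1 L1 1 (by omega) e1 hb1
  have f2 := hb b2 L2 2 (by omega) e2 hb2
  have hS0 : 0 < S := by omega
  refine ⟨hL1, hL2, f0, f1, f2, ?_, ?_⟩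
  · simp only [hp.o]
    refine Vert_P c cs (vec x r) _ _ _ _ _ _ _ (Vert_phiQ f0 f1 f2 h0 h1 h2)
      (Vert_phiH f0 f1 f2 h0 h1 h2) (fun k hk => ?_) (fun k hk => ?_) (Vert_gm e0 e1 e2 hg')
      (Vert_gm f0 f1 f2 hg) (eS ▸ Vert_shr S 112)
    · refine (unp_chords hp.tP _ _ _ _ _ _ _ _ _ _ _ _ hk).trans (le_of_eq ?_)
      have hs := (good2_Kf true (k + 1)).symm
      rw [prs, ← f0, ← f1, ← f2, hs b1 b0 , hs b2 b0, hs b2 b1]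
    · refine (unp_chords hp.tM _ _ _ _ _ _ _ _ _ _ _ _ hk).trans (le_of_eq ?_)
      rw [prs, ← e0, ← e1, ← e2]
  · simp only [hp.o]
    refine Vert_Q cs (vec x r) _ _ _ ?_ ?_ (eS ▸ Vert_shr' S 112)
    · refine le_trans (le_of_eq ?_) (Vert_div _ _ 112 (Nat.mul_pos hS0 hS0))
      rw [cC1, ← eS, ← e0, ← e1, ← e2]
      simp only [Nat.add_eq, Nat.pow_eq, Nat.mul_eq, Nat.cast_add, Nat.cast_pow, Nat.cast_mul, sq]
    · refine le_trans (le_of_eq ?_) (Vert_div _ _ 112 hS0)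
      rw [cC2, ← eS, ← e0, ← e1, ← e2]
      simp only [Nat.add_eq, Nat.mul_eq, Nat.cast_add, Nat.cast_mul, sq]

theorem mkV_spec {c : Cf} (hle : c.cL ≤ c.cS) {cs : List Co} {nD : ℕ} {p : Pre} (hp : PreOk c cs nD p)
    (X R x r h0 h1 h2 hg : ℕ) : ∃ v, VOk c cs v ∧ v.x = x ∧ v.r = r ∧
      ∀ k : Vx → Bool, mkV p X R x r h0 h1 h2 hg k = k v := by
  refine ⟨_, Vert_main hle hp X R x r (Nat.mul x nN) (Nat.mul x r) _ _ _ _ rfl rfl rfl rfl rfl rfl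
    _ _ _ _ _ (root4_pow _ h0) (root4_pow _ h1) (root4_pow _ h2) (root3_pow _ hg)
    (chkR_pow 3 _ (Nat.shiftRight (Nat.mul n2 (Nat.pow (Nat.mul (Nat.mul X X) R) 4)) 300) (by omega))
    (Nat.shiftRight (Nat.mul a0c (Nat.pow X 3)) 48)
    (Nat.shiftRight (Nat.mul (Nat.shiftRight (Nat.mul a0c (Nat.pow X 3)) 48) (Nat.pow R 3)) 48),
    rfl, rfl, fun k => ?_⟩
  simp only [mkV, force_eq]

theorem mkM_spec {c : Cf} (hle : c.cL ≤ c.cS) {cs : List Co} {nD : ℕ} {p : Pre} (hp : PreOk c cs nD p)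
    (X R x r : ℕ) (u w : Vx) : ∃ v, VOk c cs v ∧ v.x = x ∧ v.r = r ∧
      ∀ k : Vx → Bool, mkM p X R x r u w k = k v := by
  obtain ⟨v, h1, h2, h3, h4⟩ := mkV_spec hle hp X R x r (mid u.q0 w.q0) (mid u.q1 w.q1) (mid u.q2 w.q2)
    (mid u.g w.g)
  refine ⟨v, h1, h2, h3, fun k => ?_⟩
  rw [← h4 k]
  simp only [mkM, force_eq]

end Crest.Agent.R163.E3
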